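import Crest.Agent.R259.Defs

/-! # Row 259 (Nagata): avoiding countably many hypersurfaces -/

set_option autoImplicit false

namespace Crest.Agent.R259
open MvPolynomial

/-- Baire category (zero sets of nonzero polynomials have dense open complement, by
`MvPolynomial.funext_set` on a product of small balls). -/
theorem exists_avoid {τ : Type*} [Fintype τ] (S : Set (MvPolynomial τ ℂ)) (hS : S.Countable)
    (h0 : ∀ g ∈ S, g ≠ 0) : ∃ x : τ → ℂ, ∀ g ∈ S, eval x g ≠ 0 := by
  have hd : Dense (⋂ g ∈ S, {x : τ → ℂ | eval x g ≠ 0}) := by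
    refine dense_biInter_of_isOpen (fun g _ => ?_) hS fun g hg => ?_
    · exact isOpen_ne_fun (MvPolynomial.continuous_eval g) continuous_const
    · rw [Metric.dense_iff]
      intro x r hr
      by_contra hne
      refine h0 g hg (MvPolynomial.funext_set (fun i => Metric.ball (x i) r)
        (fun i => infinite_of_mem_nhds (x i) (Metric.ball_mem_nhds _ hr)) fun y hy => ?_)
      rw [map_zero]
      by_contra hy0
      exact hne ⟨y, by rw [ball_pi _ hr]; exact hy, hy0⟩
  obtain ⟨x, hx⟩ := hd.nonempty
  exact ⟨x, fun g hg => (Set.mem_iInter₂.1 hx) g hg⟩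

end Crest.Agent.R259
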