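import Crest.Agent.R259.Defs

/-! # Row 259 (Nagata): convolution of coefficients -/

set_option autoImplicit false

namespace Crest.Agent.R259
open MvPolynomial

theorem ext_cf {x y : R} (h : ∀ γ, cf x γ = cf y γ) : x = y := by
  ext n β
  exact h (n, β)

theorem cf_add (x y : R) (γ : ℤ × ℤ × ℤ) : cf (x + y) γ = cf x γ + cf y γ := by
  simp only [cf, HahnSeries.coeff_add, AddMonoidAlgebra.coeff_add, Finsupp.add_apply]

theorem cf_sum {ι : Type*} (s : Finset ι) (x : ι → R) (γ : ℤ × ℤ × ℤ) :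
    cf (∑ i ∈ s, x i) γ = ∑ i ∈ s, cf (x i) γ := by
  simp only [cf, HahnSeries.coeff_sum, AddMonoidAlgebra.coeff_sum, Finsupp.finsetSum_apply]

theorem cf_aK (c : K) (γ : ℤ × ℤ × ℤ) : cf (aK c) γ = if γ.2 = 0 then c.coeff γ.1 else 0 := by
  simp only [cf, aK, hmap_coeff, AddMonoidAlgebra.coe_algebraMap, Function.comp_apply,
    AddMonoidAlgebra.coeff_single, Finsupp.single_apply, Algebra.algebraMap_self, RingHom.id_apply, eq_comm]

/-- `HahnSeries.coeff_mul` and `AddMonoidAlgebra.coeff_mul_apply_left`;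
`finsum_eq_sum_of_support_subset`. -/
theorem cf_mul (x y : R) (γ : ℤ × ℤ × ℤ) :
    cf (x * y) γ = ∑ᶠ δ : ℤ × ℤ × ℤ, cf x δ * cf y (γ - δ) := by
  classical
  set D := Finset.antidiagonal x.isPWO_support y.isPWO_support γ.1 with hD
  set A : Finset ℤ := D.image Prod.fst with hA
  set T : Finset (ℤ × ℤ) := A.biUnion fun i => (x.coeff i).coeff.support with hT
  have hinj : Set.InjOn Prod.fst (D : Set (ℤ × ℤ)) := fun a ha b hb hab => by
    have h1 := (Finset.mem_antidiagonal.1 ha).2.2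
    have h2 := (Finset.mem_antidiagonal.1 hb).2.2
    refine Prod.ext hab ?_
    have h3 : a.1 = b.1 := hab
    omega
  rw [finsum_eq_sum_of_support_subset (s := A ×ˢ T), Finset.sum_product, hA, Finset.sum_image hinj]
  · simp only [cf]
    rw [HahnSeries.coeff_mul, AddMonoidAlgebra.coeff_sum, Finsupp.finsetSum_apply]
    refine Finset.sum_congr rfl fun ij hij => ?_
    have h1 : γ.1 - ij.1 = ij.2 := by
      have := (Finset.mem_antidiagonal.1 hij).2.2
      omega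
    rw [AddMonoidAlgebra.coeff_mul_apply_left, Finsupp.sum_of_support_subset (s := T)]
    · refine Finset.sum_congr rfl fun β _ => ?_
      simp only [Prod.fst_sub, Prod.snd_sub, h1, neg_add_eq_sub]
    · exact Finset.subset_biUnion_of_mem (fun i => (x.coeff i).coeff.support)
        (Finset.mem_image_of_mem Prod.fst hij)
    · intro _ _
      exact zero_mul _
  · intro δ hδ
    have h1 : cf x δ ≠ 0 := left_ne_zero_of_mul hδ
    have h2 : cf y (γ - δ) ≠ 0 := right_ne_zero_of_mul hδ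
    have h3 : δ.1 ∈ A := by
      refine Finset.mem_image.2 ⟨(δ.1, γ.1 - δ.1), Finset.mem_antidiagonal.2 ⟨fun h => h1 ?_, fun h => h2 ?_, by simp⟩, rfl⟩
      · simp only at h
        simp [cf, h]
      · simp only at h
        simp [cf, h]
    exact Finset.mem_coe.2 (Finset.mem_product.2 ⟨h3, Finset.mem_biUnion.2 ⟨δ.1, h3, Finsupp.mem_support_iff.2 h1⟩⟩)

theorem exists_hahn (c : ℤ × ℤ × ℤ → ℂ) (h : ∀ n : ℤ, {γ | γ.1 ≤ n ∧ c γ ≠ 0}.Finite) :
    ∃ x : R, ∀ γ, cf x γ = c γ := by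
  have hfin : ∀ n : ℤ, (Function.support fun β : ℤ × ℤ => c (n, β)).Finite := fun n =>
    ((h n).image Prod.snd).subset fun β hβ => ⟨(n, β), ⟨le_rfl, hβ⟩, rfl⟩
  have hb : BddBelow (Function.support fun n : ℤ =>
      (AddMonoidAlgebra.ofCoeff (Finsupp.ofSupportFinite _ (hfin n)) : B)) := by
    obtain ⟨m, hm⟩ := ((h 0).image Prod.fst).bddBelow
    refine ⟨min m 0, fun n hn => ?_⟩
    by_contra hlt
    push Not at hlt
    apply hn
    ext β
    by_contra hβ
    have h1 : c (n, β) ≠ 0 := hβ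
    have h2 := hm ⟨(n, β), ⟨(hlt.le.trans (min_le_right _ _)), h1⟩, rfl⟩
    exact absurd (lt_of_lt_of_le hlt (min_le_left _ _)) (not_lt.2 h2)
  exact ⟨HahnSeries.ofSuppBddBelow _ hb, fun γ => rfl⟩

theorem Rel.mul {σ : (ℤ × ℤ × ℤ) ≃+ (ℤ × ℤ × ℤ)} {x y x' y' : R} (h : Rel σ x y)
    (h' : Rel σ x' y') : Rel σ (x * x') (y * y') := by
  intro γ
  rw [cf_mul, cf_mul, ← finsum_comp_equiv σ.toEquiv]
  refine finsum_congr fun δ => ?_
  rw [← h δ, ← h' (γ - δ), map_sub]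
  rfl

theorem Rel.eval₂ {σ : (ℤ × ℤ × ℤ) ≃+ (ℤ × ℤ × ℤ)} (hσ : ∀ n : ℤ, σ (n, 0) = (n, 0))
    {Θ Θ' : Fin 3 → R} (h : ∀ j, Rel σ (Θ j) (Θ' j)) (P : MvPolynomial (Fin 3) K) :
    Rel σ (eval₂ aK Θ P) (eval₂ aK Θ' P) := by
  have hC : ∀ c : K, Rel σ (aK c) (aK c) := fun c γ => by
    by_cases h0 : γ.2 = 0
    · have h1 : γ = (γ.1, 0) := Prod.ext rfl h0
      rw [h1, hσ]
    · have h1 : (σ γ).2 ≠ 0 := fun h2 => h0 (by
        have h3 : σ γ = σ ((σ γ).1, 0) := by
          rw [hσ]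
          exact Prod.ext rfl h2
        rw [σ.injective h3])
      rw [cf_aK, cf_aK, if_neg h0, if_neg h1]
  induction P using MvPolynomial.induction_on with
  | C a => simpa only [eval₂_C] using hC a
  | add p q hp hq =>
    intro γ
    rw [eval₂_add, eval₂_add, cf_add, cf_add, hp γ, hq γ]
  | mul_X p j hp =>
    rw [eval₂_mul, eval₂_mul, eval₂_X, eval₂_X]
    exact hp.mul (h j)

theorem VDeg.mul {e e' : ℤ} {x y : R} (h : VDeg e x) (h' : VDeg e' y) :
    VDeg (e + e') (x * y) := by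
  intro γ hγ
  rw [cf_mul] at hγ
  by_contra hne
  apply hγ
  refine finsum_eq_zero_of_forall_eq_zero fun δ => ?_
  by_contra h0
  have h1 := h δ (left_ne_zero_of_mul h0)
  have h2 := h' (γ - δ) (right_ne_zero_of_mul h0)
  simp only [Prod.snd_sub] at h2
  omega

theorem vdeg_eval₂ {Θ : Fin 3 → R} (h : ∀ j, VDeg 1 (Θ j)) (P : MvPolynomial (Fin 3) K)
    (γ : ℤ × ℤ × ℤ) (hγ : cf (eval₂ aK Θ P) γ ≠ 0) : ∃ μ ∈ P.support, γ.2.2 = (μ.degree : ℤ) := by
  have hC : ∀ c : K, VDeg 0 (aK c) := fun c δ hδ => by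
    rw [cf_aK] at hδ
    by_contra h0
    exact hδ (if_neg fun h1 => h0 (by rw [h1]; rfl))
  have hpow : ∀ (j : Fin 3) (n : ℕ), VDeg n (Θ j ^ n) := fun j n => by
    induction n with
    | zero => simpa only [pow_zero, map_one, Nat.cast_zero] using hC 1
    | succ n ih => simpa only [pow_succ, Nat.cast_succ] using ih.mul (h j)
  rw [eval₂_eq', cf_sum] at hγ
  obtain ⟨μ, hμ, h0⟩ := Finset.exists_ne_zero_of_sum_ne_zero hγ
  refine ⟨μ, hμ, ?_⟩
  rw [Fin.prod_univ_three] at h0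
  have h1 := (hC (coeff μ P)).mul (((hpow 0 (μ 0)).mul (hpow 1 (μ 1))).mul (hpow 2 (μ 2))) γ h0
  rw [h1, Finsupp.degree_eq_sum, Fin.sum_univ_three]
  push_cast
  ring

/-- The column `β` of `x`, an element of `K`. -/
noncomputable def colK (β : ℤ × ℤ) (x : R) : K :=
  x.map ((Finsupp.applyAddHom β).comp AddMonoidAlgebra.coeffAddEquiv.toAddMonoidHom)

theorem colK_coeff (β : ℤ × ℤ) (x : R) (n : ℤ) : (colK β x).coeff n = cf x (n, β) := rfl

theorem colK_aK_mul (β : ℤ × ℤ) (c : K) (x : R) : colK β (aK c * x) = c * colK β x := by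
  ext n
  rw [colK_coeff, cf_mul, HahnSeries.coeff_mul]
  classical
  have hinj : Set.InjOn (fun ij : ℤ × ℤ => ((ij.1, 0) : ℤ × ℤ × ℤ))
      (Finset.antidiagonal c.isPWO_support (colK β x).isPWO_support n : Set (ℤ × ℤ)) := fun a ha b hb hab => by
    have h1 := (Finset.mem_antidiagonal.1 ha).2.2
    have h2 := (Finset.mem_antidiagonal.1 hb).2.2
    have h3 : a.1 = b.1 := (Prod.ext_iff.1 hab).1
    exact Prod.ext h3 (by omega)
  rw [finsum_eq_sum_of_support_subset (s := (Finset.antidiagonal c.isPWO_support (colK β x).isPWO_support n).image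
    fun ij => ((ij.1, 0) : ℤ × ℤ × ℤ)), Finset.sum_image hinj]
  · refine Finset.sum_congr rfl fun ij hij => ?_
    have h1 : n - ij.1 = ij.2 := by
      have := (Finset.mem_antidiagonal.1 hij).2.2
      omega
    rw [cf_aK, if_pos rfl, colK_coeff, Prod.mk_sub_mk, h1, sub_zero]
  · intro δ hδ
    have h1 : cf (aK c) δ ≠ 0 := left_ne_zero_of_mul hδ
    have h2 : cf x ((n, β) - δ) ≠ 0 := right_ne_zero_of_mul hδ
    rw [cf_aK] at h1
    have h3 : δ.2 = 0 := by
      by_contra h4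
      exact h1 (if_neg h4)
    rw [if_pos h3] at h1
    have h4 : (n, β) - δ = (n - δ.1, β) := by
      refine Prod.ext rfl ?_
      rw [Prod.snd_sub, h3, sub_zero]
    rw [h4] at h2
    exact Finset.mem_coe.2 (Finset.mem_image.2 ⟨(δ.1, n - δ.1),
      Finset.mem_antidiagonal.2 ⟨h1, h2, by simp⟩, Prod.ext rfl h3.symm⟩)

theorem colK_sum {ι : Type*} (β : ℤ × ℤ) (s : Finset ι) (x : ι → R) :
    colK β (∑ i ∈ s, x i) = ∑ i ∈ s, colK β (x i) := by
  ext n
  rw [colK_coeff, cf_sum, HahnSeries.coeff_sum]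
  rfl

end Crest.Agent.R259
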