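import Crest.Agent.R259.Indep

/-! # Row 259 (Nagata): the cubic relation -/

set_option autoImplicit false

namespace Crest.Agent.R259
open MvPolynomial

theorem Cubic.top {μ : Fin 3 →₀ ℕ} (h : μ.degree = 3) (h0 : ¬ μ 0 ≤ 2) :
    μ = Finsupp.single 0 3 := by
  rw [Finsupp.degree_eq_sum, Fin.sum_univ_three] at h
  ext j
  fin_cases j <;> simp <;> omega

theorem Cubic.rel {N ν : ℤ} {Θ : Fin 3 → R} (h : IsTheta N ν Θ) :
    ∃ F : MvPolynomial (Fin 3) K, F.IsHomogeneous 3 ∧ F ≠ 0 ∧ eval₂ aK Θ F = 0 := by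
  classical
  set S : Finset (Fin 3 →₀ ℕ) := Finset.finsuppAntidiag Finset.univ 3 with hS
  have hcard : S.card = 10 := by
    rw [hS, Finset.card_finsuppAntidiag_nat_eq_choose]; rfl
  have hdeg : ∀ μ ∈ S, μ.degree = 3 := by
    intro μ hμ
    rw [Finsupp.degree_eq_sum]
    exact (Finset.mem_finsuppAntidiag.1 hμ).1
  let v : S → Fin 9 → K := fun μ k => colK ((k : ℤ), 3) (eval₂ aK Θ (monomial μ.1 1))
  have hv : ¬ LinearIndependent K v := by
    intro hli
    have := hli.fintype_card_le_finrank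
    simp [hcard] at this
  obtain ⟨g, hg, μ0, hμ0⟩ := Fintype.not_linearIndependent_iff.1 hv
  have hhom : (∑ μ : S, monomial μ.1 (g μ) : MvPolynomial (Fin 3) K).IsHomogeneous 3 :=
    IsHomogeneous.sum _ _ _ fun μ _ => isHomogeneous_monomial _ (hdeg _ μ.2)
  refine ⟨∑ μ : S, monomial μ.1 (g μ), hhom, ?_, ?_⟩
  · intro h0
    apply hμ0
    have := congrArg (coeff μ0.1) h0
    rw [coeff_sum, Finset.sum_eq_single μ0] at this
    · simpa using this
    · intro b _ hb
      rw [coeff_monomial, if_neg (fun e => hb (Subtype.ext e))]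
    · simp
  · set F : MvPolynomial (Fin 3) K := ∑ μ : S, monomial μ.1 (g μ) with hF
    set x := eval₂ aK Θ F with hx
    have hcol : ∀ k : Fin 9, colK ((k : ℤ), 3) x = 0 := by
      intro k
      have := congrFun hg k
      simp only [Finset.sum_apply, Pi.smul_apply, smul_eq_mul, Pi.zero_apply, v] at this
      rw [← this, hx, hF, eval₂_sum, colK_sum]
      refine Finset.sum_congr rfl fun μ _ => ?_
      rw [← colK_aK_mul]
      congr 1
      simp [eval₂_monomial]
    have hrel : Rel (sig N ν) x x :=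
      Rel.eval₂ (fun n => by simp [sig_apply]) h.inv F
    have hstep : ∀ k : ℤ, (∀ n, cf x (n, k, 3) = 0) ↔ ∀ n, cf x (n, k + 9, 3) = 0 := by
      intro k
      constructor
      · intro H n
        have := hrel (n - 6 * N * k + 3 * ν * 3, k, 3)
        rw [H] at this
        rw [← this, sig_apply]
        congr 2
        ring
      · intro H n
        rw [← hrel (n, k, 3), sig_apply]
        exact H _
    have hall : ∀ q : ℤ, ∀ k : Fin 9, ∀ n, cf x (n, (k : ℤ) + 9 * q, 3) = 0 := by
      intro q k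
      induction q using Int.induction_on with
      | zero =>
        intro n
        have := congrArg (fun y : K => y.coeff n) (hcol k)
        simpa [colK_coeff] using this
      | succ i ih =>
        have := (hstep _).1 ih
        intro n
        rw [show (k : ℤ) + 9 * ((i : ℤ) + 1) = (k : ℤ) + 9 * (i : ℤ) + 9 by ring]
        exact this n
      | pred i ih =>
        apply (hstep _).2
        intro n
        rw [show (k : ℤ) + 9 * (-(i : ℤ) - 1) + 9 = (k : ℤ) + 9 * (-(i : ℤ)) by ring]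
        exact ih n
    apply ext_cf
    rintro ⟨n, k, i⟩
    have h0 : cf 0 (n, k, i) = 0 := by simp [cf]
    rw [h0]
    by_contra hne
    obtain ⟨μ, hμ, hi⟩ := vdeg_eval₂ h.vdeg F _ hne
    have h3 : μ.degree = 3 := by
      by_contra h3
      exact mem_support_iff.1 hμ (hhom.coeff_eq_zero h3)
    rw [h3] at hi
    simp only at hi
    subst hi
    apply hne
    have := hall (k / 9) ⟨(k % 9).toNat, by omega⟩ n
    have e : (((k % 9).toNat : ℕ) : ℤ) + 9 * (k / 9) = k := by omega
    simp only [e] at this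
    exact this

/-- The ten cubic monomials give ten vectors `(colK (k,3) ·)_{0 ≤ k < 9}` in `K⁹`; a relation `F`
has `F(Θ) = 0` by `v`-degree and `sig`-invariance (columns are periodic mod 9); its `X₀³`
coefficient is nonzero by `indep`. -/
theorem IsTheta.cubic {N ν : ℤ} (hN : 1 ≤ N) {Θ : Fin 3 → R} (h : IsTheta N ν Θ) :
    ∃ H : MvPolynomial (Fin 3) K, H.IsHomogeneous 3 ∧ Normal H ∧
      eval₂ aK Θ (X 0 ^ 3 - H) = 0 := by
  classical
  obtain ⟨F, hF, hF0, hev⟩ := Cubic.rel h
  have hd : ∀ {P : MvPolynomial (Fin 3) K}, P.IsHomogeneous 3 →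
      coeff (Finsupp.single 0 3) P = 0 → Normal P := by
    intro P hP h0 μ hμ
    by_contra h2
    have h3 : μ.degree = 3 := by
      by_contra h3
      exact mem_support_iff.1 hμ (hP.coeff_eq_zero h3)
    rw [Cubic.top h3 h2] at hμ
    exact mem_support_iff.1 hμ h0
  have hc : coeff (Finsupp.single 0 3) F ≠ 0 := fun h0 => h.indep hN F hF0 (hd hF h0) hev
  have hH : (X 0 ^ 3 - C (coeff (Finsupp.single 0 3) F)⁻¹ * F :
      MvPolynomial (Fin 3) K).IsHomogeneous 3 :=
    (isHomogeneous_X_pow 0 3).sub (hF.C_mul _)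
  refine ⟨_, hH, hd hH ?_, ?_⟩
  · rw [coeff_sub, coeff_C_mul, inv_mul_cancel₀ hc, coeff_X_pow]
    simp
  · have e : (X 0 ^ 3 - (X 0 ^ 3 - C (coeff (Finsupp.single 0 3) F)⁻¹ * F) :
        MvPolynomial (Fin 3) K) = C (coeff (Finsupp.single 0 3) F)⁻¹ * F := by ring
    rw [e, eval₂_mul, hev, mul_zero]

end Crest.Agent.R259
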