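import Crest.Agent.R259.Van

/-! # Row 259 (Nagata): emptiness of a linear system is an open condition -/

set_option autoImplicit false

namespace Crest.Agent.R259
open MvPolynomial

namespace GenX

/-- rows of the interpolation matrix -/
abbrev Row {σ ι : Type*} (m : ι → ℕ) : Type _ := {r : ι × (σ →₀ ℕ) // r.2.degree < m r.1}

/-- the interpolation matrix -/
noncomputable def IM {A σ ι : Type*} [CommRing A] (E : Finset (σ →₀ ℕ)) (m : ι → ℕ) (p : ι → σ → A) :
    Matrix (Row (σ := σ) m) E A :=
  fun r μ => (tr (p r.1.1) (monomial μ.1 1)).coeff r.1.2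

theorem finite_row {σ ι : Type*} [Fintype σ] [Fintype ι] (m : ι → ℕ) : Finite (Row (σ := σ) m) := by
  have h : {r : ι × (σ →₀ ℕ) | r.2.degree < m r.1}.Finite := by
    refine (Set.finite_univ.prod (Finsupp.finite_of_degree_le (σ := σ) (Finset.univ.sup m))).subset ?_
    rintro ⟨i, α⟩ h
    exact ⟨trivial, le_trans (le_of_lt h) (Finset.le_sup (f := m) (Finset.mem_univ i))⟩
  exact h

theorem map_tr {A A' σ : Type*} [CommRing A] [CommRing A'] (φ : A →+* A') (P : σ → A)
    (f : MvPolynomial σ A) : map φ (tr P f) = tr (fun j => φ (P j)) (map φ f) := by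
  induction f using MvPolynomial.induction_on with
  | C a => simp [tr]
  | add f g hf hg => simp only [map_add, hf, hg]
  | mul_X f j hf => simp only [map_mul, hf]; simp [tr]

theorem IM_map {A A' σ ι : Type*} [CommRing A] [CommRing A'] (φ : A →+* A') (E : Finset (σ →₀ ℕ)) (m : ι → ℕ)
    (p : ι → σ → A) : (IM E m p).map φ = IM E m (fun i j => φ (p i j)) := by
  ext r μ
  simp only [IM, Matrix.map_apply, ← coeff_map, map_tr, map_monomial, map_one]

theorem coeff_sum_mono {A σ : Type*} [CommRing A] (E : Finset (σ →₀ ℕ)) (c : E → A) (P : σ → A)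
    (α : σ →₀ ℕ) : (tr P (∑ μ : E, monomial μ.1 (c μ))).coeff α =
      ∑ μ : E, (tr P (monomial μ.1 1)).coeff α * c μ := by
  rw [map_sum, coeff_sum]
  refine Finset.sum_congr rfl fun μ _ => ?_
  rw [show (monomial μ.1 (c μ) : MvPolynomial σ A) = c μ • monomial μ.1 1 by simp [smul_monomial], map_smul,
    coeff_smul, smul_eq_mul, mul_comm]

theorem emp_iff {A σ ι : Type*} [CommRing A] (E : Finset (σ →₀ ℕ)) (m : ι → ℕ) (p : ι → σ → A) :
    Emp E m p ↔ ∀ c : E → A, (IM E m p).mulVec c = 0 → c = 0 := by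
  classical
  have hco : ∀ (c : E → A) (ν : σ →₀ ℕ), (∑ μ : E, monomial μ.1 (c μ) : MvPolynomial σ A).coeff ν =
      if h : ν ∈ E then c ⟨ν, h⟩ else 0 := fun c ν => by
    rw [coeff_sum]
    split_ifs with h
    · rw [Finset.sum_eq_single ⟨ν, h⟩]
      · simp
      · intro μ _ hμ
        rw [coeff_monomial, if_neg fun h' => hμ (Subtype.ext h')]
      · simp
    · refine Finset.sum_eq_zero fun μ _ => ?_
      rw [coeff_monomial, if_neg fun h' : μ.1 = ν => h (h' ▸ μ.2)]
  constructor
  · intro h c hc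
    have h1 := h (∑ μ : E, monomial μ.1 (c μ)) (fun ν hν => by
      by_contra hn
      rw [mem_support_iff, hco, dif_neg hn] at hν
      exact hν rfl) fun i => (mem_mI_pow_iff _ _ _).2 fun α hα => by
        rw [coeff_sum_mono]
        exact congrFun hc ⟨(i, α), hα⟩
    funext μ
    have h2 := hco c μ.1
    rw [h1, dif_pos μ.2] at h2
    exact h2.symm
  · intro h f hf hm
    have h1 : f = ∑ μ : E, monomial μ.1 (f.coeff μ.1) := by
      ext ν
      rw [hco (fun μ => f.coeff μ.1)]
      split_ifs with hν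
      · rfl
      · exact notMem_support_iff.1 fun h' => hν (hf h')
    have h2 := h (fun μ => f.coeff μ.1) (funext fun r => by
      have h3 := (mem_mI_pow_iff _ _ _).1 (hm r.1.1) r.1.2 r.2
      rw [h1, coeff_sum_mono] at h3
      exact h3)
    rw [h1]
    refine Finset.sum_eq_zero fun μ _ => ?_
    rw [show f.coeff μ.1 = 0 from congrFun h2 μ, map_zero]

end GenX
open GenX

/-- Interpolation matrix `A` over `MvPolynomial (ι × σ) L`: rows `(i, α)` with `α.degree < m i`,
columns `μ ∈ E`, entry `coeff α (tr (fun j => X (i,j)) (monomial μ 1))`.  At `q` it has trivial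
kernel, hence a left inverse `Bm` over `L`; take `g = det (Bm.map C * A)`, `eval q g = 1`. -/
theorem exists_cond {L σ ι : Type*} [Field L] [Fintype σ] [Fintype ι] (E : Finset (σ →₀ ℕ))
    (m : ι → ℕ) (q : ι → σ → L) (hq : Emp E m q) :
    ∃ g : MvPolynomial (ι × σ) L, g ≠ 0 ∧
      ∀ p : ι → σ → L, eval (fun ij : ι × σ => p ij.1 ij.2) g ≠ 0 → Emp E m p := by
  classical
  have := finite_row (σ := σ) m
  have := Fintype.ofFinite (Row (σ := σ) m)
  obtain ⟨g, hg⟩ := (Matrix.toLin' (IM E m q)).exists_leftInverse_of_injective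
    (LinearMap.ker_eq_bot'.2 fun c hc => (emp_iff E m q).1 hq c hc)
  have hB : LinearMap.toMatrix' g * IM E m q = 1 := by
    have := congrArg LinearMap.toMatrix' hg
    rwa [LinearMap.toMatrix'_comp, LinearMap.toMatrix'_toLin', LinearMap.toMatrix'_id] at this
  have hev : ∀ p : ι → σ → L, eval (fun ij : ι × σ => p ij.1 ij.2)
      ((LinearMap.toMatrix' g).map C * IM E m (fun i j => (X (i, j) : MvPolynomial (ι × σ) L))).det =
      (LinearMap.toMatrix' g * IM E m p).det := fun p => by
    rw [RingHom.map_det, RingHom.mapMatrix_apply]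
    congr 1
    refine Matrix.map_mul.trans ?_
    rw [IM_map, Matrix.map_map]
    congr 1
    · ext a b
      simp
    · simp
  refine ⟨((LinearMap.toMatrix' g).map C * IM E m (fun i j => (X (i, j) : MvPolynomial (ι × σ) L))).det, fun h0 => ?_, fun p hp => (emp_iff E m p).2 fun c hc => ?_⟩
  · have h1 := hev q
    rw [h0, hB, Matrix.det_one, map_zero] at h1
    exact zero_ne_one h1
  · rw [hev] at hp
    refine Matrix.eq_zero_of_mulVec_eq_zero hp ?_
    rw [← Matrix.mulVec_mulVec, hc, Matrix.mulVec_zero]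

/-- A system that is nonempty at all complex tuples with nonzero coordinates is nonempty at every
tuple over an extension field (`exists_cond` over `L`, `funext_set` with the infinite sets
`φ '' {x | x ≠ 0}`, `map_mem_mI_pow`). -/
theorem transfer {L σ ι : Type*} [Field L] [Fintype σ] [Fintype ι] (φ : ℂ →+* L)
    (E : Finset (σ →₀ ℕ)) (m : ι → ℕ)
    (h : ∀ p : ι → σ → ℂ, (∀ i j, p i j ≠ 0) → ¬ Emp E m p) (q : ι → σ → L) : ¬ Emp E m q := by
  intro hq
  obtain ⟨g, hg0, hg⟩ := exists_cond E m q hq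
  have hinf : (φ '' {x | x ≠ 0}).Infinite :=
    (Set.infinite_of_finite_compl (by simp)).image φ.injective.injOn
  have h1 : ∃ x : ι × σ → L, (∀ ij, x ij ∈ φ '' {x | x ≠ 0}) ∧ eval x g ≠ 0 := by
    by_contra hn
    push Not at hn
    refine hg0 (funext_set (fun _ => φ '' {x | x ≠ 0}) (fun _ => hinf) fun x hx => ?_)
    rw [map_zero]
    exact hn x fun ij => hx ij trivial
  obtain ⟨x, hx, hx0⟩ := h1
  choose p hp0 hp using hx
  have h2 : Emp E m fun i j => φ (p (i, j)) := hg _ (by
    have : (fun ij : ι × σ => φ (p (ij.1, ij.2))) = x := funext hp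
    rwa [this])
  refine h (fun i j => p (i, j)) (fun i j => hp0 (i, j)) fun f hf hm => ?_
  refine map_injective φ φ.injective ?_
  rw [map_zero]
  exact h2 _ ((support_map_subset φ f).trans hf) fun i => map_mem_mI_pow φ _ _ f (hm i)

end Crest.Agent.R259
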