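import Crest.Agent.R259.Defs

/-! # Row 259 (Nagata): the lattice count -/

set_option autoImplicit false

namespace Crest.Agent.R259
open MvPolynomial

theorem col_spread (S : Finset (ℤ × ℤ)) (k : ℤ) (b : ℕ) (hk : ∀ β ∈ S, β.1 = k) (h3 : ∀ β ∈ S, 3 ∣ β.2)
    (hb : b < S.card) : ∃ β ∈ S, ∃ β' ∈ S, β.2 + 3 * b ≤ β'.2 := by
  have hne : S.Nonempty := Finset.card_pos.1 (by omega)
  obtain ⟨β, hβ, hmin⟩ := S.exists_min_image Prod.snd hne
  by_contra h
  push Not at h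
  have h1 : S.card ≤ (Finset.Ico (β.2 / 3) (β.2 / 3 + b)).card := by
    refine Finset.card_le_card_of_injOn (fun x => x.2 / 3) (fun x hx => ?_) fun x hx y hy hxy => ?_
    · have := hmin x hx
      have := h β hβ x hx
      have := h3 β hβ
      simp only [Finset.coe_Ico, Set.mem_Ico]
      omega
    · have := h3 x hx
      have := h3 y hy
      simp only at hxy
      exact Prod.ext ((hk x hx).trans (hk y hy).symm) (by omega)
  rw [Int.card_Ico] at h1
  omega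

theorem num_col {a m M b k j j' : ℤ} (hm : 1 ≤ m) (ham : m < a) (hM : 3 * a ^ 2 < M) (hb0 : 0 ≤ b) (hb : b ≤ m)
    (hj : j + b ≤ j') (hj' : j' ≤ a) (h1 : 6 * (m * M) * k ≤ (9 * (6 * M * (a - m) - 1) + 54 * (m * M)) * j)
    (h2 : 9 * (6 * M * (a - m) - 1) * j' ≤ 6 * (m * M) * k) :
    9 * a * (a - m) * b ≤ m ^ 2 * k ∧ m ^ 2 * k < 9 * a * m * (a - b) := by
  have hM0 : 0 < M := by nlinarith
  have hu : 0 < 6 * M * a - 1 := by nlinarith
  have hw : 0 < 6 * M * (a - m) - 1 := by nlinarith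
  have h1' : 6 * M * (m * k) ≤ 9 * (6 * M * a - 1) * j := by linarith
  constructor
  · have h3 : 9 * (6 * M * (a - m) - 1) * (j + b) ≤ 6 * M * (m * k) := by nlinarith
    have h4 := mul_le_mul_of_nonneg_left h3 hu.le
    have h5 := mul_le_mul_of_nonneg_left h1' hw.le
    have h6 : 9 * b * ((6 * M * (a - m) - 1) * (6 * M * a - 1)) ≤ (6 * M) ^ 2 * (m ^ 2 * k) := by linarith
    have h7 : 9 * b * (2 * a - m) < 6 * M := by nlinarith [sq_nonneg (a - m)]
    by_contra h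
    have h8 : m ^ 2 * k + 1 ≤ 9 * a * (a - m) * b := not_le.1 h
    have h9 := mul_le_mul_of_nonneg_left h8 (sq_nonneg (6 * M))
    have h10 := mul_lt_mul_of_pos_left h7 (by linarith : 0 < 6 * M)
    nlinarith
  · have h3 : 6 * M * (m * k) < 6 * M * (9 * a * (a - b)) := by nlinarith
    have h4 := lt_of_mul_lt_mul_left h3 (by linarith)
    nlinarith


/-- If column `k` has more than `b` points then its largest and smallest `j` differ by at least `b`,
whence `9a(a-m)b ≤ m²k < 9am(a-b)`  (with `M' = 6M`: `m M' k ≤ 9(M'a-1)(a-b)` and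
`(mM')² k ≥ 9 (M'(a-m)-1)(M'a-1) b`, then integrality since `M' > 9b(2a-m)`). -/
theorem num (r a m M : ℕ) (hm : 1 ≤ m) (ham : m < a) (hr : 9 * a ^ 2 ≤ r * m ^ 2)
    (hM : 3 * a ^ 2 < M) (N ν : ℤ) (hN : N = m * M) (hν : ν = 6 * M * (a - m) - 1)
    (T : Finset (ℤ × ℤ))
    (hT : ∀ β ∈ T, ∃ j : ℕ, j ≤ a ∧ β.2 = 3 * j ∧ 9 * ν * j ≤ 6 * N * β.1 ∧
      6 * N * β.1 ≤ (9 * ν + 54 * N) * j) :
    ∀ b ≤ m, ∀ k k' : ℤ, b < (T.filter fun β => β.1 = k).card →
      b < (T.filter fun β => β.1 = k').card → k - k' < (r : ℤ) * ((m : ℤ) - b) := by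
  have key : ∀ b ≤ m, ∀ k : ℤ, b < (T.filter fun β => β.1 = k).card →
      9 * (a : ℤ) * (a - m) * b ≤ (m : ℤ) ^ 2 * k ∧ (m : ℤ) ^ 2 * k < 9 * a * m * (a - b) := by
    intro b hb k hk
    obtain ⟨β, hβ, β', hβ', h⟩ := col_spread _ k b (fun β hβ => (Finset.mem_filter.1 hβ).2) (fun β hβ => by
      obtain ⟨j, -, hj, -⟩ := hT β (Finset.mem_filter.1 hβ).1
      exact ⟨j, hj⟩) hk
    rw [Finset.mem_filter] at hβ hβ'
    obtain ⟨j, -, e, -, h1⟩ := hT β hβ.1
    obtain ⟨j', hj', e', h2, -⟩ := hT β' hβ'.1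
    rw [hβ.2, hN, hν] at h1
    rw [hβ'.2, hN, hν] at h2
    exact num_col (j := j) (j' := j') (by exact_mod_cast hm) (by exact_mod_cast ham) (by exact_mod_cast hM)
      (Nat.cast_nonneg b) (by exact_mod_cast hb) (by omega) (by exact_mod_cast hj') h1 h2
  intro b hb k k' hk hk'
  have h1 := (key b hb k hk).2
  have h2 := (key b hb k' hk').1
  have h3 : 9 * (a : ℤ) ^ 2 ≤ r * (m : ℤ) ^ 2 := by exact_mod_cast hr
  have h4 : (0 : ℤ) ≤ m - b := sub_nonneg.2 (by exact_mod_cast hb)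
  have h5 := mul_le_mul_of_nonneg_right h3 h4
  refine lt_of_mul_lt_mul_left (a := (m : ℤ) ^ 2) ?_ (sq_nonneg _)
  linarith

end Crest.Agent.R259
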