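import Crest.Agent.R259.Span

/-! # Row 259 (Nagata): deformation to the normal cone -/

set_option autoImplicit false
set_option linter.unusedSectionVars false

namespace Crest.Agent.R259
open MvPolynomial

theorem sstep_scale {K' S σ : Type*} [CommRing K'] [CommRing S] [Fintype σ] (a : K' →+* S)
    (Θ : σ → S) (g : S) (P : MvPolynomial σ K') (n : ℕ) (hP : P.IsHomogeneous n) :
    eval₂ a (fun j => g * Θ j) P = g ^ n * eval₂ a Θ P := by
  rw [eval₂_eq', eval₂_eq', Finset.mul_sum]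
  refine Finset.sum_congr rfl fun μ hμ => ?_
  have hd : ∑ j, μ j = n := by
    have := hP (mem_support_iff.1 hμ)
    rw [← this, ← Finsupp.degree_eq_sum, Finsupp.degree_eq_weight_one]
    rfl
  simp only [mul_pow, Finset.prod_mul_distrib, Finset.prod_pow_eq_pow_sum, hd]
  ring

/-- `F(Φ)` is `Low 1` with coefficient `g³`, `monomial μ (Φ)` is `Low 0` with coefficient
`g^|μ| Θ^μ`; write `f = ∑ c_μ F^{p μ} X^μ` and apply `exists_low_sum`. -/
theorem sstep {K' S : Type*} [CommRing K'] [CommRing S] (a : K' →+* S) (Θ : Fin 3 → S)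
    (H : MvPolynomial (Fin 3) K') (hH : H.IsHomogeneous 3) (hHn : Normal H)
    (hΘ : eval₂ a Θ (X 0 ^ 3 - H) = 0) (g : S) (hg : g = eval₂ a Θ (pderiv 0 (X 0 ^ 3 - H)))
    (e : ℕ) (f : MvPolynomial (Fin 3) (HahnSeries ℤ K')) (hf : f ≠ 0)
    (hfh : f.IsHomogeneous (3 * e)) :
    ∃ (n₀ : ℤ) (D : MvPolynomial (Fin 3) K'), D ≠ 0 ∧ Normal D ∧
      (∀ μ ∈ D.support, ∃ j ≤ e, μ.degree = 3 * j) ∧
      (eval₂ (hmap a) (Phi g Θ) f).coeff n₀ = g ^ (3 * e) * eval₂ a Θ D := by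
  classical
  set F : MvPolynomial (Fin 3) K' := X 0 ^ 3 - H with hF
  have hFh : F.IsHomogeneous 3 := by
    refine IsHomogeneous.sub ?_ hH
    simpa using (isHomogeneous_X K' (0 : Fin 3)).pow 3
  let cC : K' →+* HahnSeries ℤ K' := HahnSeries.C
  have hH' : (map cC H).IsHomogeneous 3 := hH.map _
  have hHn' : Normal (map cC H) := fun μ hμ => hHn μ (support_map_subset _ _ hμ)
  have hF' : (X 0 ^ 3 - map cC H : MvPolynomial (Fin 3) (HahnSeries ℤ K')) = map cC F := by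
    simp [hF]
  let p : (Fin 3 →₀ ℕ) → ℕ := fun μ => e - μ.degree / 3
  let M : Set (Fin 3 →₀ ℕ) := {μ | μ 0 ≤ 2 ∧ μ.degree + 3 * p μ = 3 * e}
  let v : (Fin 3 →₀ ℕ) → MvPolynomial (Fin 3) (HahnSeries ℤ K') := fun μ =>
    map cC F ^ p μ * monomial μ 1
  have hsp : f ∈ Submodule.span (HahnSeries ℤ K') (v '' M) := by
    refine Submodule.span_mono ?_ (mem_span_normal (map cC H) hH' hHn' (3 * e) f hfh)
    rintro x ⟨p', μ, h0, hd, rfl⟩
    have hp : p μ = p' := by simp only [p]; omega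
    exact ⟨μ, ⟨h0, by rw [hp]; exact hd⟩, by simp only [v]; rw [hp, hF']⟩
  obtain ⟨c, hcM, hc⟩ := (Finsupp.mem_span_image_iff_linearCombination _).1 hsp
  rw [Finsupp.linearCombination_apply, Finsupp.sum] at hc
  have hM : ∀ μ ∈ c.support, μ ∈ M := fun μ hμ => (Finsupp.mem_supported _ _).1 hcM hμ
  have hcomp : (hmap a).comp cC = HahnSeries.C.comp a := by
    ext1 x
    exact hmap_C a x
  have hFΦ : Low 1 (eval₂ (hmap a) (Phi g Θ) (map cC F)) (g ^ 3) := by
    rw [eval₂_map, hcomp]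
    obtain ⟨W, w, hW, hT⟩ := taylor_one a (fun j => g * Θ j) F
    have : Phi g Θ = fun j => HahnSeries.C (g * Θ j) +
      if j = 0 then HahnSeries.single 1 1 else 0 := rfl
    rw [this, hT, sstep_scale a Θ g F 3 hFh, hΘ, mul_zero, map_zero, zero_add,
      sstep_scale a Θ g _ 2 hFh.pderiv, ← hg]
    have := (low_single (1 : ℤ) (g ^ 2 * g)).add (hW.mono (n' := 1) (by norm_num))
    rw [add_zero] at this
    rw [pow_succ g 2]
    exact this
  have hΦ : ∀ j, Low 0 (Phi g Θ j) (g * Θ j) := by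
    intro j
    have h2 : Low 0 (if j = 0 then HahnSeries.single (1 : ℤ) (1 : S) else 0) 0 := by
      split_ifs
      · exact (low_single (1 : ℤ) (1 : S)).mono (by norm_num)
      · exact ⟨fun _ _ => rfl, rfl⟩
    have := (low_C (g * Θ j)).add h2
    rwa [add_zero] at this
  have hW : ∀ μ ∈ c.support, Low ((p μ : ℕ) : ℤ) (eval₂ (hmap a) (Phi g Θ) (v μ))
      (g ^ (3 * e) * ∏ j, Θ j ^ μ j) := by
    intro μ hμ
    have h1 := (hFΦ.pow (p μ)).mul (Low.prod_pow hΦ μ)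
    rw [mul_one, add_zero] at h1
    have hd : ∑ j, μ j + 3 * p μ = 3 * e := by
      rw [← Finsupp.degree_eq_sum]; exact (hM μ hμ).2
    have e1 : eval₂ (hmap a) (Phi g Θ) (v μ) =
        eval₂ (hmap a) (Phi g Θ) (map cC F) ^ p μ * ∏ j, Phi g Θ j ^ μ j := by
      simp only [v]
      rw [eval₂_mul, eval₂_pow, eval₂_monomial, map_one, one_mul, Finsupp.prod_fintype]
      intro i; simp
    have e2 : g ^ (3 * e) * ∏ j, Θ j ^ μ j = (g ^ 3) ^ p μ * ∏ j, (g * Θ j) ^ μ j := by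
      simp only [mul_pow, Finset.prod_mul_distrib, Finset.prod_pow_eq_pow_sum]
      rw [← hd]; ring
    rw [e1, e2]; exact h1
  have hne : ∃ μ ∈ c.support, c μ ≠ 0 := by
    by_contra hcon
    push Not at hcon
    apply hf
    rw [← hc]
    exact Finset.sum_eq_zero fun μ hμ => by rw [hcon μ hμ, zero_smul]
  obtain ⟨n₀, ⟨μ₀, hμ₀, hc₀⟩, hn₀⟩ := exists_low_sum c.support a (fun μ => c μ) hne
    (fun μ => ((p μ : ℕ) : ℤ)) _ _ hW
  let D : MvPolynomial (Fin 3) K' :=
    ∑ μ ∈ c.support, monomial μ ((c μ).coeff (n₀ - (p μ : ℕ)))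
  have hDs : ∀ μ ∈ D.support, μ ∈ c.support := by
    intro μ hμ
    by_contra hno
    apply mem_support_iff.1 hμ
    simp only [D]
    rw [coeff_sum]
    refine Finset.sum_eq_zero fun ν hν => ?_
    rw [coeff_monomial, if_neg fun h : ν = μ => hno (h ▸ hν)]
  refine ⟨n₀, D, fun h0 => hc₀ ?_, fun μ hμ => (hM μ (hDs μ hμ)).1, fun μ hμ => ?_, ?_⟩
  · have : D.coeff μ₀ = (c μ₀).coeff (n₀ - (p μ₀ : ℕ)) := by
      simp only [D]
      rw [coeff_sum, Finset.sum_eq_single μ₀]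
      · simp
      · intro ν _ hν
        rw [coeff_monomial, if_neg hν]
      · intro h; exact absurd hμ₀ h
    rw [← this, h0]; rfl
  · have := (hM μ (hDs μ hμ)).2
    exact ⟨e - p μ, Nat.sub_le _ _, by omega⟩
  · have e3 : eval₂ (hmap a) (Phi g Θ) f =
        ∑ μ ∈ c.support, hmap a (c μ) * eval₂ (hmap a) (Phi g Θ) (v μ) := by
      rw [← hc, eval₂_sum]
      refine Finset.sum_congr rfl fun μ _ => ?_
      rw [smul_eq_C_mul, eval₂_mul, eval₂_C]
    rw [e3, hn₀]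
    simp only [D]
    rw [eval₂_sum, Finset.mul_sum]
    refine Finset.sum_congr rfl fun μ _ => ?_
    rw [eval₂_monomial, Finsupp.prod_fintype _ _ (fun i => by simp)]
    ring

end Crest.Agent.R259
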