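import Crest.Agent.R259.Defs

/-! # Row 259 (Nagata): Vandermonde lemmas -/

set_option autoImplicit false

namespace Crest.Agent.R259
open MvPolynomial

theorem vand_poly (T : Finset ℤ) (c : ℤ → ℂ) (b : ℕ)
    (h : ∀ γ < b, ∑ j ∈ T, c j * (j : ℂ) ^ γ = 0) (q : Polynomial ℂ) (hq : q.natDegree < b) :
    ∑ j ∈ T, c j * q.eval (j : ℂ) = 0 := by
  simp only [Polynomial.eval_eq_sum_range' hq, Finset.mul_sum]
  rw [Finset.sum_comm]
  refine Finset.sum_eq_zero fun γ hγ => ?_
  have := congrArg (q.coeff γ * ·) (h γ (Finset.mem_range.1 hγ))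
  simp only [Finset.mul_sum, mul_zero] at this
  rw [← this]
  exact Finset.sum_congr rfl fun j _ => by ring

/-- Vandermonde (test against `∏_{j' ∈ T \ {j}} (X - j')`). -/
theorem vand (T : Finset ℤ) (c : ℤ → ℂ) (b : ℕ) (hb : T.card ≤ b)
    (h : ∀ γ < b, ∑ j ∈ T, c j * (j : ℂ) ^ γ = 0) : ∀ j ∈ T, c j = 0 := by
  intro j hj
  have hdeg : (∏ j' ∈ T.erase j, (Polynomial.X - Polynomial.C (j' : ℂ))).natDegree < b := by
    rw [Polynomial.natDegree_finsetProd_X_sub_C_eq_card, Finset.card_erase_of_mem hj]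
    have := Finset.card_pos.2 ⟨j, hj⟩
    omega
  have h1 := vand_poly T c b h _ hdeg
  rw [Finset.sum_eq_single_of_mem j hj] at h1
  · refine (mul_eq_zero.1 h1).resolve_right ?_
    rw [Polynomial.eval_prod]
    refine Finset.prod_ne_zero_iff.2 fun j' hj' => ?_
    simp only [Polynomial.eval_sub, Polynomial.eval_X, Polynomial.eval_C, sub_ne_zero]
    exact_mod_cast (Finset.ne_of_mem_erase hj').symm
  · intro j' hj' hne
    rw [Polynomial.eval_prod, Finset.prod_eq_zero (Finset.mem_erase.2 ⟨hne, hj'⟩) (by simp), mul_zero]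

/-- Confluent Vandermonde: `p = ∑ₖ h k X^(k - k₀)` (`k₀ = min T`) has degree `< r μ` and each `z i`
is a root of multiplicity `≥ μ` (`descPochhammer` / iterated derivatives), so `p = 0`. -/
theorem confluent (r μ : ℕ) (z : Fin r → ℂˣ) (hz : Function.Injective z) (T : Finset ℤ)
    (h : ℤ → ℂ) (hT : ∀ k ∈ T, ∀ k' ∈ T, k - k' < (r : ℤ) * μ)
    (hm : ∀ i, ∀ α < μ, ∑ k ∈ T, h k * (k : ℂ) ^ α * (z i : ℂ) ^ k = 0) : ∀ k ∈ T, h k = 0 := by
  intro k hk
  have hne : T.Nonempty := ⟨k, hk⟩
  set k0 := T.min' hne with hk0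
  have hk0T : k0 ∈ T := T.min'_mem hne
  have hle : ∀ j ∈ T, k0 ≤ j := fun j hj => T.min'_le j hj
  set n : ℤ → ℕ := fun j => (j - k0).toNat with hn
  have hnc : ∀ j ∈ T, (n j : ℤ) = j - k0 := fun j hj => Int.toNat_of_nonneg (by linarith [hle j hj])
  set p : Polynomial ℂ := ∑ j ∈ T, Polynomial.C (h j) * Polynomial.X ^ n j with hp
  have hco : p.coeff (n k) = h k := by
    rw [hp, Polynomial.finsetSum_coeff, Finset.sum_eq_single_of_mem k hk]
    · simp
    · intro j hj hjk
      rw [Polynomial.coeff_C_mul_X_pow, if_neg]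
      intro e
      have h1 := hnc j hj
      have h2 := hnc k hk
      rw [e] at h2
      exact hjk (by omega)
  suffices p = 0 by rw [← hco, this, Polynomial.coeff_zero]
  by_contra hp0
  have hdeg : p.natDegree < r * μ := by
    have hpos : 0 < r * μ := by
      have := hT k hk k hk
      rw [sub_self] at this
      exact_mod_cast this
    refine lt_of_le_of_lt (Polynomial.natDegree_sum_le_of_forall_le _ _ (n := r * μ - 1) fun j hj =>
      (Polynomial.natDegree_C_mul_X_pow_le _ _).trans ?_) (by omega)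
    have h1 := hT j hj k0 hk0T
    rw [← hnc j hj] at h1
    have h2 : n j < r * μ := by exact_mod_cast h1
    omega
  have hdvd : ∀ i, (Polynomial.X - Polynomial.C (z i : ℂ)) ^ μ ∣ p := fun i => by
    rcases Nat.eq_zero_or_pos μ with rfl | hμ
    · simp
    rw [← Polynomial.le_rootMultiplicity_iff hp0]
    have : μ - 1 < p.rootMultiplicity (z i : ℂ) := by
      refine Polynomial.lt_rootMultiplicity_of_isRoot_iterate_derivative hp0 fun α hα => ?_
      have hq : ((descPochhammer ℂ α).comp (Polynomial.X - Polynomial.C (k0 : ℂ))).natDegree < μ := by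
        rw [Polynomial.natDegree_comp, descPochhammer_natDegree, Polynomial.natDegree_X_sub_C]
        omega
      have h1 := vand_poly T (fun j => h j * (z i : ℂ) ^ j) μ (fun γ hγ => by
        rw [← hm i γ hγ]
        exact Finset.sum_congr rfl fun j _ => by ring) _ hq
      have hz0 : (z i : ℂ) ≠ 0 := (z i).ne_zero
      rw [Polynomial.IsRoot.def]
      refine mul_right_cancel₀ (mul_ne_zero (pow_ne_zero α hz0) (zpow_ne_zero k0 hz0)) ?_
      rw [zero_mul, ← h1, hp, Polynomial.iterate_derivative_sum, Polynomial.eval_finsetSum,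
        Finset.sum_mul]
      refine Finset.sum_congr rfl fun j hj => ?_
      have e1 : (j : ℂ) - k0 = (n j : ℂ) := by exact_mod_cast (hnc j hj).symm
      rw [Polynomial.iterate_derivative_C_mul, Polynomial.iterate_derivative_X_pow_eq_C_mul,
        Polynomial.eval_comp]
      simp only [Polynomial.eval_mul, Polynomial.eval_C, Polynomial.eval_pow, Polynomial.eval_X,
        Polynomial.eval_sub, e1, descPochhammer_eval_eq_descFactorial]
      rcases lt_or_ge (n j) α with hlt | hge
      · simp [Nat.descFactorial_of_lt hlt]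
      · have e2 : (z i : ℂ) ^ j = (z i : ℂ) ^ (n j - α) * (z i : ℂ) ^ α * (z i : ℂ) ^ k0 := by
          rw [← pow_add, Nat.sub_add_cancel hge, ← zpow_natCast, ← zpow_add₀ hz0, hnc j hj,
            sub_add_cancel]
        rw [e2]
        ring
    omega
  have hall : ∏ i, (Polynomial.X - Polynomial.C (z i : ℂ)) ^ μ ∣ p :=
    Finset.prod_dvd_of_coprime (fun i _ j _ hij =>
      (Polynomial.pairwise_coprime_X_sub_C (s := fun i => (z i : ℂ))
        (fun a b e => hz (Units.ext e)) hij).pow) fun i _ => hdvd i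
  have h2 := Polynomial.natDegree_le_of_dvd hall hp0
  rw [Polynomial.natDegree_prod_of_monic _ _ fun i _ => (Polynomial.monic_X_sub_C _).pow _] at h2
  simp only [Polynomial.natDegree_pow, Polynomial.natDegree_X_sub_C, mul_one, Finset.sum_const,
    Finset.card_univ, Fintype.card_fin, smul_eq_mul] at h2
  omega

end Crest.Agent.R259
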