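import Crest.Agent.R259.Moment
import Crest.Agent.R259.Vand

/-! # Row 259 (Nagata): the toric lemma -/

set_option autoImplicit false
set_option linter.unusedSectionVars false

namespace Crest.Agent.R259
open MvPolynomial

/-- Let `s k γ = ∑_{β in column k} c β · β.2^γ`.  If all `s k γ = 0` for `γ < m` then `g = 0` by
`vand` (`hcol` with `b = m`, `k = k'` says columns have `≤ m` points).  Otherwise take `b < m`
minimal with some `s k b ≠ 0`; such columns have `> b` points (`vand`), so they lie in a window
`< r (m - b)`, and `confluent` with `μ = m - b` (`moment`) gives a contradiction. -/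
theorem toric (r m : ℕ) (z : Fin r → ℂˣ) (hz : Function.Injective z) (g : B)
    (hg : ∀ i, g ∈ RingHom.ker (ev (z i)) ^ m)
    (hcol : ∀ b ≤ m, ∀ k k' : ℤ, b < (g.coeff.support.filter fun β => β.1 = k).card →
      b < (g.coeff.support.filter fun β => β.1 = k').card → k - k' < (r : ℤ) * ((m : ℤ) - b)) :
    g = 0 := by
  classical
  set S := g.coeff.support with hS
  let s : ℤ → ℕ → ℂ := fun k γ => ∑ β ∈ S.filter (fun β => β.1 = k), g.coeff β * (β.2 : ℂ) ^ γ
  have hA : ∀ (k : ℤ) (b : ℕ), (S.filter fun β => β.1 = k).card ≤ b → (∀ γ < b, s k γ = 0) →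
      ∀ β ∈ S.filter (fun β => β.1 = k), g.coeff β = 0 := by
    intro k b hb h0 β hβ
    have hinj : Set.InjOn (fun β : ℤ × ℤ => β.2) (S.filter fun β => β.1 = k) := by
      intro x hx y hy hxy
      have hx' := (Finset.mem_filter.1 hx).2
      have hy' := (Finset.mem_filter.1 hy).2
      exact Prod.ext (hx'.trans hy'.symm) hxy
    have := vand ((S.filter fun β => β.1 = k).image fun β => β.2) (fun j => g.coeff (k, j)) b
      (Finset.card_image_le.trans hb) (fun γ hγ => by
        rw [Finset.sum_image hinj, ← h0 γ hγ]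
        refine Finset.sum_congr rfl fun x hx => ?_
        have hx' := (Finset.mem_filter.1 hx).2
        rw [← hx']) β.2 (Finset.mem_image_of_mem _ hβ)
    have hβ' := (Finset.mem_filter.1 hβ).2
    rw [← hβ'] at this
    exact this
  by_cases h1 : ∃ b, b < m ∧ ∃ k, s k b ≠ 0
  · exfalso
    have hb := Nat.find_spec h1
    set b := Nat.find h1 with hbdef
    have hmin : ∀ γ < b, ∀ k, s k γ = 0 := by
      intro γ hγ k
      by_contra hne
      exact Nat.find_min h1 hγ ⟨hγ.trans hb.1, k, hne⟩
    obtain ⟨hbm, k₀, hk₀⟩ := hb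
    have hbig : ∀ k, s k b ≠ 0 → b < (S.filter fun β => β.1 = k).card := by
      intro k hk
      by_contra hle
      apply hk
      refine Finset.sum_eq_zero fun β hβ => ?_
      rw [hA k b (not_lt.1 hle) (fun γ hγ => hmin γ hγ k) β hβ, zero_mul]
    let T : Finset ℤ := (S.image fun β => β.1).filter fun k => s k b ≠ 0
    have hk₀T : k₀ ∈ T := by
      refine Finset.mem_filter.2 ⟨?_, hk₀⟩
      obtain ⟨β, hβ⟩ := Finset.card_pos.1 ((Nat.zero_le b).trans_lt (hbig k₀ hk₀))
      exact Finset.mem_image.2 ⟨β, (Finset.mem_filter.1 hβ).1, (Finset.mem_filter.1 hβ).2⟩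
    refine hk₀ (confluent r (m - b) z hz T (fun k => s k b) ?_ ?_ k₀ hk₀T)
    · intro k hk k' hk'
      have := hcol b hbm.le k k' (hbig k (Finset.mem_filter.1 hk).2)
        (hbig k' (Finset.mem_filter.1 hk').2)
      rwa [Nat.cast_sub hbm.le]
    · intro i α hα
      have hmom := moment (z i) m g (hg i) α b (by omega)
      rw [← hS, ← Finset.sum_fiberwise_of_maps_to (s := S) (t := S.image fun β => β.1)
        (g := fun β => β.1) (fun x hx => Finset.mem_image_of_mem _ hx)] at hmom
      rw [← hmom, Finset.sum_filter_of_ne]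
      · refine Finset.sum_congr rfl fun k _ => ?_
        simp only [s, Finset.sum_mul]
        refine Finset.sum_congr rfl fun β hβ => ?_
        rw [← (Finset.mem_filter.1 hβ).2]
        ring
      · intro k _ hk h0
        exact hk (by rw [h0, zero_mul, zero_mul])
  · push Not at h1
    have hz0 : ∀ β, g.coeff β = 0 := by
      intro β
      by_contra hβ
      have hβS : β ∈ S := Finsupp.mem_support_iff.2 hβ
      refine hβ (hA β.1 m ?_ (fun γ hγ => h1 γ hγ β.1) β (Finset.mem_filter.2 ⟨hβS, rfl⟩))
      by_contra hlt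
      have := hcol m le_rfl β.1 β.1 (not_le.1 hlt) (not_le.1 hlt)
      simp at this
    ext β
    simpa using hz0 β

end Crest.Agent.R259
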