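import Crest.Agent.R259.Homog
import Crest.Agent.R259.Generic
import Crest.Agent.R259.Num
import Crest.Agent.R259.Toric
import Crest.Agent.R259.SStep
import Crest.Agent.R259.Cubic

/-! # Row 259 (Nagata): the uniform case -/

set_option autoImplicit false

namespace Crest.Agent.R259
open MvPolynomial

theorem isHomogeneous_iff_degree {A σ : Type*} [CommSemiring A] (F : MvPolynomial σ A) (e : ℕ) :
    F.IsHomogeneous e ↔ ∀ μ ∈ F.support, μ.degree = e := by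
  constructor
  · intro h μ hμ
    rw [Finsupp.degree_eq_weight_one]
    exact h (mem_support_iff.mp hμ)
  · intro h μ hμ
    have := h μ (mem_support_iff.mpr hμ)
    rwa [Finsupp.degree_eq_weight_one] at this

theorem support_subset_antidiag {A : Type*} [CommSemiring A] (F : MvPolynomial (Fin 3) A) (e : ℕ) :
    F.support ⊆ Finset.finsuppAntidiag Finset.univ e ↔ F.IsHomogeneous e := by
  rw [isHomogeneous_iff_degree]
  refine forall_congr' fun μ => forall_congr' fun _ => ?_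
  rw [Finset.mem_finsuppAntidiag, Finsupp.degree_eq_sum]
  simp

theorem leadingCoeff_pow' {A : Type*} [CommRing A] [IsDomain A] (x : HahnSeries ℤ A) (n : ℕ) :
    (x ^ n).leadingCoeff = x.leadingCoeff ^ n := by
  induction n with
  | zero => simp
  | succ n ih => rw [pow_succ, HahnSeries.leadingCoeff_mul, ih, pow_succ]

theorem three_ne_zero_K : (3 : K) ≠ 0 := by
  have : (3 : K) = HahnSeries.C (3 : ℂ) := (map_ofNat (HahnSeries.C : ℂ →+* K) 3).symm
  rw [this]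
  exact (map_ne_zero_iff _ (RingHom.injective _)).mpr (by norm_num)

theorem pderiv_cubic (H : MvPolynomial (Fin 3) K) (hH : H.IsHomogeneous 3) (hHn : Normal H) :
    pderiv 0 (X 0 ^ 3 - H) ≠ 0 ∧ Normal (pderiv 0 (X 0 ^ 3 - H)) ∧
      (pderiv 0 (X 0 ^ 3 - H)).IsHomogeneous 2 := by
  classical
  have hF : (X 0 ^ 3 - H : MvPolynomial (Fin 3) K).IsHomogeneous 3 :=
    (isHomogeneous_X_pow 0 3).sub hH
  have h2 : (pderiv 0 (X 0 ^ 3 - H)).IsHomogeneous 2 := hF.pderiv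
  refine ⟨?_, ?_, h2⟩
  · intro h0
    have h1 := coeff_pderiv (i := (0 : Fin 3)) (X 0 ^ 3 - H) (Finsupp.single 0 2)
    rw [h0, coeff_zero, ← Finsupp.single_add, coeff_sub, X_pow_eq_monomial, coeff_monomial] at h1
    have h3 : coeff (Finsupp.single (0 : Fin 3) (2 + 1)) H = 0 := by
      by_contra hne
      have := hHn _ (mem_support_iff.mpr hne)
      simp at this
    rw [h3] at h1
    simp only [Nat.reduceAdd, ↓reduceIte, sub_zero, Finsupp.single_eq_same, Nat.cast_ofNat,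
      one_mul] at h1
    apply three_ne_zero_K
    rw [h1]; norm_num
  · intro μ hμ
    have := (isHomogeneous_iff_degree _ _).mp h2 μ hμ
    rw [Finsupp.degree_eq_sum, Fin.sum_univ_three] at this
    omega

theorem core (r a m : ℕ) (hm : 1 ≤ m) (ham : m < a) (hr : 9 * a ^ 2 ≤ r * m ^ 2)
    (h : ∀ p : Fin r → Fin 2 → ℂ, ∃ f : MvPolynomial (Fin 2) ℂ, f ≠ 0 ∧ f.totalDegree ≤ 3 * a ∧
      ∀ i, f ∈ mI (p i) ^ m) : False := by
  classical
  set E : Finset (Fin 3 →₀ ℕ) := Finset.finsuppAntidiag Finset.univ (3 * a) with hE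
  have h3 : ∀ P : Fin r → Fin 3 → ℂ, (∀ i j, P i j ≠ 0) → ¬ Emp E (fun _ => m) P := by
    intro P hP hemp
    obtain ⟨f, hf0, hfd, hfm⟩ := h fun i => ![P i 0 / P i 2, P i 1 / P i 2]
    obtain ⟨F, hF0, hFh, hF⟩ := homog (3 * a) f hf0 hfd
    exact hF0 (hemp F ((support_subset_antidiag F _).mpr hFh) fun i => hF (P i) m (hP i 2) (hfm i))
  obtain ⟨M, hM⟩ : ∃ M : ℕ, 3 * a ^ 2 < M := ⟨_, Nat.lt_succ_self _⟩
  obtain ⟨N, hN⟩ : ∃ N : ℤ, N = m * M := ⟨_, rfl⟩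
  obtain ⟨ν, hν⟩ : ∃ ν : ℤ, ν = 6 * M * (a - m) - 1 := ⟨_, rfl⟩
  have hN1 : 1 ≤ N := by
    have h1 : 1 ≤ M := by omega
    have : 1 ≤ m * M := Nat.mul_pos hm h1
    rw [hN]; exact_mod_cast this
  obtain ⟨Θ, hΘ⟩ := exists_theta N ν hN1
  obtain ⟨H, hH, hHn, hF⟩ := hΘ.cubic hN1
  obtain ⟨hd0, hdn, hdh⟩ := pderiv_cubic H hH hHn
  obtain ⟨g, hg⟩ : ∃ g : R, g = eval₂ aK Θ (pderiv 0 (X 0 ^ 3 - H)) := ⟨_, rfl⟩
  have hg0 : g ≠ 0 := hg ▸ hΘ.indep hN1 _ hd0 hdn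
  have hgl : ∀ β ∈ g.leadingCoeff.coeff.support, β.2 = 2 := by
    intro β hβ
    have h1 : cf g (g.order, β) ≠ 0 := by
      rw [HahnSeries.leadingCoeff_eq] at hβ
      exact Finsupp.mem_support_iff.mp hβ
    rw [hg] at h1
    obtain ⟨μ, hμ, hβμ⟩ := vdeg_eval₂ hΘ.vdeg _ _ h1
    rw [(isHomogeneous_iff_degree _ _).mp hdh μ hμ] at hβμ
    simpa using hβμ
  obtain ⟨z, hz, hzg⟩ := exists_points r g.leadingCoeff (HahnSeries.leadingCoeff_ne_zero.mpr hg0)
    2 hgl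
  let φ : ℂ →+* HahnSeries ℤ K := (HahnSeries.C : K →+* HahnSeries ℤ K).comp HahnSeries.C
  let Q : Fin r → Fin 3 → HahnSeries ℤ K := fun i j =>
    hmap (hmap (ev (z i)).toRingHom) (Phi g Θ j)
  have hne := transfer φ E (fun _ => m) h3 Q
  simp only [Emp, not_forall] at hne
  obtain ⟨f, hfE, hfm, hf0⟩ := hne
  have hfh := (support_subset_antidiag f _).mp hfE
  obtain ⟨n₀, D, hD0, hDn, hDd, hD⟩ := sstep aK Θ H hH hHn hF g hg a f hf0 hfh
  obtain ⟨G, hG⟩ : ∃ G : R, G = eval₂ aK Θ D := ⟨_, rfl⟩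
  rw [← hG] at hD
  have hG0 : G ≠ 0 := hG ▸ hΘ.indep hN1 _ hD0 hDn
  have hmem : ∀ i, G.leadingCoeff ∈ RingHom.ker (ev (z i)) ^ m := by
    intro i
    have h1 : eval₂ (hmap aK) (Phi g Θ) f ∈ CI (CI (RingHom.ker (ev (z i)))) ^ m := by
      refine eval₂_mem_pow (hmap aK) (Q i) (Phi g Θ) _ (fun j => ?_) m f (hfm i)
      intro n n'
      simp [Q, aK, RingHom.mem_ker, ev_single]
    have h2 : g ^ (3 * a) * G ∈ CI (RingHom.ker (ev (z i)) ^ m) := by
      rw [← hD]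
      exact CI_pow _ m (CI_pow _ m h1 n₀)
    have h4 : (g ^ (3 * a) * G).leadingCoeff ∈ RingHom.ker (ev (z i)) ^ m := by
      rw [HahnSeries.leadingCoeff_eq]; exact h2 _
    rw [HahnSeries.leadingCoeff_mul, leadingCoeff_pow'] at h4
    refine cancel_unit (z i) m _ _ ?_ h4
    rw [map_pow]; exact pow_ne_zero _ (hzg i)
  have hinv : Rel (sig N ν) G G := by
    rw [hG]
    exact Rel.eval₂ (fun n => by simp [sig_apply]) hΘ.inv D
  have hord : ∀ γ, cf G γ ≠ 0 → G.order ≤ γ.1 := by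
    intro γ hγ
    apply HahnSeries.order_le_of_coeff_ne_zero
    intro h0
    apply hγ
    simp [cf, h0]
  have hT : ∀ β ∈ G.leadingCoeff.coeff.support, ∃ j : ℕ, j ≤ a ∧ β.2 = 3 * j ∧
      9 * ν * j ≤ 6 * N * β.1 ∧ 6 * N * β.1 ≤ (9 * ν + 54 * N) * j := by
    intro β hβ
    have h1 : cf G (G.order, β) ≠ 0 := by
      rw [HahnSeries.leadingCoeff_eq] at hβ
      exact Finsupp.mem_support_iff.mp hβ
    obtain ⟨μ, hμ, hβμ⟩ := vdeg_eval₂ hΘ.vdeg D _ (hG ▸ h1)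
    obtain ⟨j, hj, hμj⟩ := hDd μ hμ
    have hβ2 : β.2 = 3 * j := by
      rw [hμj] at hβμ
      simpa using hβμ
    have h2 := hord _ (by rw [hinv]; exact h1)
    have h3 := hord ((sig N ν).symm (G.order, β)) (by
      rw [← hinv, AddEquiv.apply_symm_apply]; exact h1)
    simp only [sig_apply, sig_symm_apply, hβ2] at h2 h3
    refine ⟨j, hj, hβ2, by linarith, by linarith⟩
  exact HahnSeries.leadingCoeff_ne_zero.mpr hG0
    (toric r m z hz _ hmem (num r a m M hm ham hr hM N ν hN hν _ hT))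

end Crest.Agent.R259
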