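import Mathlib

/-! # Row 259 (Nagata): definitions

Notation: `B = ℂ[z^±, v^±]` (exponent `(k,i)` for `z^k v^i`), `K = ℂ((t))`, `R = B((t))`.
An element `x : R` has coefficients `cf x (n,k,i)` (of `t^n z^k v^i`). -/

set_option autoImplicit false

namespace Crest.Agent.R259
open MvPolynomial

/-- The ideal of the point `P`. -/
noncomputable def mI {A σ : Type*} [CommRing A] (P : σ → A) : Ideal (MvPolynomial σ A) :=
  Ideal.span (Set.range fun j => (X j : MvPolynomial σ A) - C (P j))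

/-- Re-expansion around the point `P`. -/
noncomputable def tr {A σ : Type*} [CommRing A] (P : σ → A) :
    MvPolynomial σ A →ₐ[A] MvPolynomial σ A :=
  aeval (fun j => (X j : MvPolynomial σ A) + C (P j))

/-- The linear system of polynomials with monomials in `E` and multiplicities `m i` at `p i`
is empty. -/
def Emp {A σ ι : Type*} [CommRing A] (E : Finset (σ →₀ ℕ)) (m : ι → ℕ) (p : ι → σ → A) : Prop :=
  ∀ f : MvPolynomial σ A, f.support ⊆ E → (∀ i, f ∈ mI (p i) ^ m i) → f = 0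

/-- All monomials have `X 0`-exponent at most `2`. -/
def Normal {A : Type*} [CommSemiring A] (P : MvPolynomial (Fin 3) A) : Prop :=
  ∀ μ ∈ P.support, μ 0 ≤ 2

/-- Coefficientwise map of Laurent series, as a ring hom. -/
noncomputable def hmap {A A' : Type*} [CommRing A] [CommRing A'] (f : A →+* A') :
    HahnSeries ℤ A →+* HahnSeries ℤ A' where
  toFun x := x.map f
  map_one' := HahnSeries.map_one f.toMonoidWithZeroHom
  map_mul' x y := HahnSeries.map_mul (f : A →ₙ+* A') (x := x) (y := y)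
  map_zero' := HahnSeries.map_zero (f : ZeroHom A A')
  map_add' x y := HahnSeries.map_add (f : A →+ A') (x := x) (y := y)

@[simp] theorem hmap_coeff {A A' : Type*} [CommRing A] [CommRing A'] (f : A →+* A')
    (x : HahnSeries ℤ A) (n : ℤ) : (hmap f x).coeff n = f (x.coeff n) := rfl

/-- `x` has no terms below `t^n` and its `t^n`-coefficient is `c`. -/
def Low {A : Type*} [Zero A] (n : ℤ) (x : HahnSeries ℤ A) (c : A) : Prop :=
  (∀ j < n, x.coeff j = 0) ∧ x.coeff n = c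

/-- Laurent series all of whose coefficients lie in `I`. -/
def CI {A : Type*} [CommRing A] (I : Ideal A) : Ideal (HahnSeries ℤ A) where
  carrier := {x | ∀ n, x.coeff n ∈ I}
  add_mem' {x y} hx hy n := by
    rw [HahnSeries.coeff_add]; exact I.add_mem (hx n) (hy n)
  zero_mem' n := by simp
  smul_mem' c x hx n := by
    rw [smul_eq_mul, HahnSeries.coeff_mul]
    exact I.sum_mem fun ij _ => I.mul_mem_left _ (hx _)

theorem mem_CI {A : Type*} [CommRing A] {I : Ideal A} {x : HahnSeries ℤ A} :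
    x ∈ CI I ↔ ∀ n, x.coeff n ∈ I := Iff.rfl

abbrev B : Type := AddMonoidAlgebra ℂ (ℤ × ℤ)
abbrev K : Type := HahnSeries ℤ ℂ
abbrev R : Type := HahnSeries ℤ B

/-- The structure map `ℂ((t)) → B((t))`. -/
noncomputable def aK : K →+* R := hmap (algebraMap ℂ B)

/-- Coefficient of `t^n z^k v^i`. -/
def cf (x : R) (γ : ℤ × ℤ × ℤ) : ℂ := (x.coeff γ.1).coeff γ.2

/-- `y` is `x` with exponents moved by `σ`. -/
def Rel (σ : (ℤ × ℤ × ℤ) ≃+ (ℤ × ℤ × ℤ)) (x y : R) : Prop := ∀ γ, cf y (σ γ) = cf x γ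

/-- `x` is homogeneous of degree `e` in `v`. -/
def VDeg (e : ℤ) (x : R) : Prop := ∀ γ, cf x γ ≠ 0 → γ.2.2 = e

/-- Evaluation `z ↦ z₀`, `v ↦ 1`. -/
noncomputable def ev (z₀ : ℂˣ) : B →ₐ[ℂ] ℂ :=
  AddMonoidAlgebra.lift ℂ ℂ (ℤ × ℤ)
    { toFun := fun β => (z₀ : ℂ) ^ (Multiplicative.toAdd β).1
      map_one' := by simp
      map_mul' := fun a b => by simp [zpow_add₀ z₀.ne_zero] }

theorem ev_apply (z₀ : ℂˣ) (g : B) :
    ev z₀ g = ∑ β ∈ g.coeff.support, g.coeff β * (z₀ : ℂ) ^ β.1 := by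
  simp [ev, AddMonoidAlgebra.lift_apply, Finsupp.sum]

theorem ev_single (z₀ : ℂˣ) (β : ℤ × ℤ) (c : ℂ) :
    ev z₀ (AddMonoidAlgebra.single β c) = c * (z₀ : ℂ) ^ β.1 := by
  simp [ev, AddMonoidAlgebra.lift_single]

/-- The quadratic exponent of the theta series. -/
def eE (k : ℤ) : ℤ := k ^ 2 - 3 * k + if k % 3 = 0 then 0 else 2

/-- The weights of the three theta series `X, Y, Z`. -/
noncomputable def wt (j : Fin 3) (k : ℤ) : ℂ :=
  ![if k % 3 = 0 then 0 else 1, if k % 3 = 1 then 1 else 0, if k % 3 = 0 then 1 else 3] j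

/-- `Θ j = ∑ₖ wt j k · t^(N e(k) - ν k) z^k v`. -/
def IsTheta (N ν : ℤ) (Θ : Fin 3 → R) : Prop :=
  ∀ j γ, cf (Θ j) γ = if γ.2.2 = 1 ∧ γ.1 = N * eE γ.2.1 - ν * γ.2.1 then wt j γ.2.1 else 0

/-- The quasi-period `(n,k,i) ↦ (n + 6Nk - 3νi, k + 3i, i)`. -/
def sig (N ν : ℤ) : (ℤ × ℤ × ℤ) ≃+ (ℤ × ℤ × ℤ) where
  toFun γ := (γ.1 + 6 * N * γ.2.1 - 3 * ν * γ.2.2, γ.2.1 + 3 * γ.2.2, γ.2.2)
  invFun γ := (γ.1 - 6 * N * (γ.2.1 - 3 * γ.2.2) + 3 * ν * γ.2.2, γ.2.1 - 3 * γ.2.2, γ.2.2)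
  left_inv γ := by ext <;> simp; ring
  right_inv γ := by ext <;> simp; ring
  map_add' a b := by ext <;> simp <;> ring

theorem sig_apply (N ν : ℤ) (γ : ℤ × ℤ × ℤ) : sig N ν γ =
    (γ.1 + 6 * N * γ.2.1 - 3 * ν * γ.2.2, γ.2.1 + 3 * γ.2.2, γ.2.2) := rfl

theorem sig_symm_apply (N ν : ℤ) (γ : ℤ × ℤ × ℤ) : (sig N ν).symm γ =
    (γ.1 - 6 * N * (γ.2.1 - 3 * γ.2.2) + 3 * ν * γ.2.2, γ.2.1 - 3 * γ.2.2, γ.2.2) := rfl

/-- The shear `(n,k,i) ↦ (n - νk, k, i)` from chart `0` to chart `ν`. -/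
def shear (ν : ℤ) : (ℤ × ℤ × ℤ) ≃+ (ℤ × ℤ × ℤ) where
  toFun γ := (γ.1 - ν * γ.2.1, γ.2.1, γ.2.2)
  invFun γ := (γ.1 + ν * γ.2.1, γ.2.1, γ.2.2)
  left_inv γ := by ext <;> simp
  right_inv γ := by ext <;> simp
  map_add' a b := by ext <;> simp; ring

theorem shear_apply (ν : ℤ) (γ : ℤ × ℤ × ℤ) : shear ν γ = (γ.1 - ν * γ.2.1, γ.2.1, γ.2.2) := rfl

/-- The deformed point `(gΘ₀ + s, gΘ₁, gΘ₂)`. -/
noncomputable def Phi {S : Type*} [CommRing S] (g : S) (Θ : Fin 3 → S) (j : Fin 3) :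
    HahnSeries ℤ S :=
  HahnSeries.C (g * Θ j) + if j = 0 then HahnSeries.single 1 1 else 0

end Crest.Agent.R259
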