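import Crest.Agent.R259.Van

/-! # Row 259 (Nagata): homogenisation -/

set_option autoImplicit false

namespace Crest.Agent.R259
open MvPolynomial

/-- Homogenisation.  `F = ∑_{μ ∈ supp f} coeff μ f · X₀^{μ 0} X₁^{μ 1} X₂^{e - |μ|}`.  In
`Q = A[X₀,X₁,X₂] / mI P ^ m` the class of `X₂` is a unit `u` (unit + nilpotent), `mk F = u^e θ(f)`
for `θ = eval₂ (mk ∘ C) ![X₀ u⁻¹, X₁ u⁻¹]`, and `θ f ∈ (map mk (mI P))^m = ⊥` by `eval₂_mem_pow`. -/
theorem homog {A : Type*} [Field A] (e : ℕ) (f : MvPolynomial (Fin 2) A) (hf : f ≠ 0)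
    (he : f.totalDegree ≤ e) :
    ∃ F : MvPolynomial (Fin 3) A, F ≠ 0 ∧ F.IsHomogeneous e ∧
      ∀ (P : Fin 3 → A) (m : ℕ), P 2 ≠ 0 → f ∈ mI ![P 0 / P 2, P 1 / P 2] ^ m → F ∈ mI P ^ m := by
  classical
  let ex : (Fin 2 →₀ ℕ) → (Fin 3 →₀ ℕ) := fun μ => Finsupp.equivFunOnFinite.symm ![μ 0, μ 1, e - (μ 0 + μ 1)]
  have hex : Function.Injective ex := fun μ ν h => by
    have h0 := DFunLike.congr_fun h 0
    have h1 := DFunLike.congr_fun h 1
    ext i
    fin_cases i
    · simpa [ex] using h0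
    · simpa [ex] using h1
  have hle : ∀ μ ∈ f.support, μ 0 + μ 1 ≤ e := fun μ hμ => by
    have := (le_totalDegree hμ).trans he
    rwa [Finsupp.sum_fintype _ _ (fun _ => rfl), Fin.sum_univ_two] at this
  refine ⟨∑ μ ∈ f.support, monomial (ex μ) (coeff μ f), ?_, ?_, fun P m hP hfm => ?_⟩
  · obtain ⟨μ, hμ⟩ := support_nonempty.2 hf
    intro h
    have h1 := congrArg (coeff (ex μ)) h
    simp only [coeff_sum, coeff_monomial, hex.eq_iff, Finset.sum_ite_eq', hμ, if_true, coeff_zero] at h1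
    exact mem_support_iff.1 hμ h1
  · refine IsHomogeneous.sum _ _ _ fun μ hμ => isHomogeneous_monomial _ ?_
    have := hle μ hμ
    rw [Finsupp.degree_eq_sum, Fin.sum_univ_three]
    simp only [ex, Finsupp.equivFunOnFinite_symm_apply_apply, Matrix.cons_val_zero, Matrix.cons_val_one,
      Matrix.cons_val]
    omega
  · set mk := Ideal.Quotient.mk (mI P ^ m) with hmk
    set J := (mI P).map mk with hJ
    have hJm : J ^ m = ⊥ := by rw [hJ, ← Ideal.map_pow, hmk, Ideal.map_quotient_self]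
    have hX : ∀ j, mk (X j) - mk (C (P j)) ∈ J := fun j => by
      rw [← map_sub]; exact Ideal.mem_map_of_mem _ (VanA.X_sub_mem_mI P j)
    have hc : mk (C (P 2)⁻¹) * mk (C (P 2)) = 1 := by
      rw [← map_mul, ← map_mul, inv_mul_cancel₀ hP, map_one, map_one]
    have hu : IsUnit (mk (X 2)) := by
      have h1 : IsNilpotent (mk (X 2) - mk (C (P 2))) :=
        ⟨m, by simpa [hJm] using Ideal.pow_mem_pow (hX 2) m⟩
      have h2 := h1.isUnit_add_right_of_commute (IsUnit.of_mul_eq_one_right _ hc) (Commute.all _ _)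
      rwa [sub_add_cancel] at h2
    obtain ⟨v, hv⟩ := hu.exists_right_inv
    have hθ := eval₂_mem_pow (mk.comp C) _ ![mk (X 0) * v, mk (X 1) * v] J (fun j => by
      have key : ∀ i, mk (X i) * v - mk (C (P i / P 2)) ∈ J := fun i => by
        have e1 : mk (X i) * v - mk (C (P i / P 2)) =
            v * ((mk (X i) - mk (C (P i))) - mk (C (P i / P 2)) * (mk (X 2) - mk (C (P 2)))) := by
          have e2 : mk (C (P i / P 2)) * mk (C (P 2)) = mk (C (P i)) := by
            rw [← map_mul, ← map_mul, div_mul_cancel₀ _ hP]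
          linear_combination (-v) * e2 + mk (C (P i / P 2)) * hv
        rw [e1]
        exact J.mul_mem_left _ (J.sub_mem (hX i) (J.mul_mem_left _ (hX 2)))
      fin_cases j
      · exact key 0
      · exact key 1) m f hfm
    rw [hJm, Ideal.mem_bot] at hθ
    rw [← Ideal.Quotient.eq_zero_iff_mem, ← hmk, ← mul_zero (mk (X 2) ^ e), ← hθ, eval₂_eq', Finset.mul_sum,
      map_sum]
    refine Finset.sum_congr rfl fun μ hμ => ?_
    obtain ⟨c, hc'⟩ := Nat.exists_eq_add_of_le (hle μ hμ)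
    rw [monomial_eq, Finsupp.prod_fintype _ _ (fun _ => pow_zero _), Fin.prod_univ_three, Fin.prod_univ_two]
    simp only [ex, Finsupp.equivFunOnFinite_symm_apply_apply, Matrix.cons_val_zero, Matrix.cons_val_one,
      Matrix.cons_val, map_mul, map_pow, RingHom.comp_apply]
    rw [hc', Nat.add_sub_cancel_left]
    have h3 : (mk (X 2) * v) ^ (μ 0 + μ 1) = 1 := by rw [hv, one_pow]
    linear_combination (-(mk (C (coeff μ f)) * mk (X 0) ^ μ 0 * mk (X 1) ^ μ 1 * mk (X 2) ^ c)) * h3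

end Crest.Agent.R259
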