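import Crest.Agent.R259.Theta

/-! # Row 259 (Nagata): independence of the normal monomials -/

set_option autoImplicit false

namespace Crest.Agent.R259
open MvPolynomial

/-- The substitution `z ↦ y - 1`, `v ↦ y^L`. -/
noncomputable def chi (L : ℕ) : B →+* K :=
  AddMonoidAlgebra.liftNCRingHom (HahnSeries.C : ℂ →+* K)
    { toFun := fun β => ((HahnSeries.single 1 1 : K) - 1) ^ (Multiplicative.toAdd β).1 *
        ((HahnSeries.single 1 1 : K) ^ L) ^ (Multiplicative.toAdd β).2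
      map_one' := by simp
      map_mul' := fun a b => by
        have h1 : (HahnSeries.single 1 1 : K) - 1 ≠ 0 := by
          intro h
          have := congrArg (fun x : K => x.coeff 1) h
          simp at this
        have h2 : (HahnSeries.single 1 1 : K) ^ L ≠ 0 :=
          pow_ne_zero _ (HahnSeries.single_ne_zero one_ne_zero)
        simp only [toAdd_mul, Prod.fst_add, Prod.snd_add, zpow_add₀ h1, zpow_add₀ h2]
        ring } (fun _ _ => Commute.all _ _)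

theorem chi_single' (L : ℕ) (β : ℤ × ℤ) (c : ℂ) : chi L (AddMonoidAlgebra.single β c) =
    HahnSeries.C c * (((HahnSeries.single 1 1 : K) - 1) ^ β.1 *
      ((HahnSeries.single 1 1 : K) ^ L) ^ β.2) :=
  AddMonoidAlgebra.liftNC_single _ _ _ _

theorem chi_single (L : ℕ) (β : ℤ × ℤ) : chi L (AddMonoidAlgebra.single β 1) =
    ((HahnSeries.single 1 1 : K) - 1) ^ β.1 * ((HahnSeries.single 1 1 : K) ^ L) ^ β.2 := by
  rw [chi_single', map_one, one_mul]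

theorem chi_algebraMap (L : ℕ) (c : ℂ) : chi L (algebraMap ℂ B c) = HahnSeries.C c := by
  have : algebraMap ℂ B c = AddMonoidAlgebra.single 0 c := by simp
  rw [this, chi_single']
  simp

theorem low_chi (L : ℕ) (μ : Fin 3 →₀ ℕ) :
    Low ((μ 0 + 3 * μ 2 + L * (μ 0 + μ 1 + μ 2) : ℕ) : ℤ) (chi L (∏ j, th0 j ^ μ j))
      ((-1) ^ (μ 0 + μ 1)) := by
  have hy : Low 1 (HahnSeries.single 1 1 : K) 1 := low_single 1 1
  have hy1 : Low 0 ((HahnSeries.single 1 1 : K) - 1) (-1) := by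
    have := (hy.mono (n' := 0) one_pos).add (low_C (-1 : ℂ))
    simpa [sub_eq_add_neg] using this
  have e0 : chi L (th0 0) = ((HahnSeries.single 1 1 : K) - 1) * HahnSeries.single 1 1 ^ (L + 1) := by
    simp only [th0, Matrix.cons_val_zero, map_mul, map_add, map_one, chi_single]
    simp only [zpow_one, zpow_zero]
    ring
  have e1 : chi L (th0 1) = ((HahnSeries.single 1 1 : K) - 1) * HahnSeries.single 1 1 ^ L := by
    simp only [th0, Matrix.cons_val_one, Matrix.cons_val_zero, chi_single]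
    simp only [zpow_one]
  have e2 : chi L (th0 2) = (HahnSeries.single 1 1 : K) ^ (L + 3) := by
    simp only [th0, Matrix.cons_val, map_mul, map_add, map_one, map_pow, chi_single]
    simp only [zpow_one, zpow_zero]
    ring
  have h0 := (hy1.mul (hy.pow (L + 1))).pow (μ 0)
  have h1 := (hy1.mul (hy.pow L)).pow (μ 1)
  have h2 := (hy.pow (L + 3)).pow (μ 2)
  have h := (h0.mul h1).mul h2
  rw [Fin.prod_univ_three, map_mul, map_mul, map_pow, map_pow, map_pow, e0, e1, e2]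
  have k1 : ((μ 0 + 3 * μ 2 + L * (μ 0 + μ 1 + μ 2) : ℕ) : ℤ) =
      (μ 0 : ℤ) * (0 + ((L + 1 : ℕ) : ℤ) * 1) + (μ 1 : ℤ) * (0 + (L : ℤ) * 1) +
        (μ 2 : ℤ) * (((L + 3 : ℕ) : ℤ) * 1) := by
    push_cast; ring
  have k2 : ((-1 : ℂ)) ^ (μ 0 + μ 1) =
      (-1 * 1 ^ (L + 1)) ^ μ 0 * (-1 * 1 ^ L) ^ μ 1 * (1 ^ (L + 3)) ^ μ 2 := by
    simp [pow_add]
  rw [k1, k2]
  exact h

/-- The normal monomials in `th0` are `z^(i+l) (1+z)^(i+3n) v^(i+l+n)`; they are independent since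
`(v-degree, order at z = -1)` determines `(i,l,n)` when `i ≤ 2`. -/
theorem th0_indep (s : Finset (Fin 3 →₀ ℕ)) (hs : ∀ μ ∈ s, μ 0 ≤ 2) (c : (Fin 3 →₀ ℕ) → ℂ)
    (h : ∑ μ ∈ s, algebraMap ℂ B (c μ) * ∏ j, th0 j ^ μ j = 0) : ∀ μ ∈ s, c μ = 0 := by
  classical
  by_contra hne
  push Not at hne
  obtain ⟨μ₁, hμ₁, hc₁⟩ := hne
  obtain ⟨L, hL⟩ : ∃ L : ℕ, ∀ μ ∈ s, μ 0 + 3 * μ 2 < L :=
    ⟨s.sup (fun μ => μ 0 + 3 * μ 2) + 1, fun μ hμ =>
      Nat.lt_succ_of_le (Finset.le_sup (f := fun μ : Fin 3 →₀ ℕ => μ 0 + 3 * μ 2) hμ)⟩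
  let p : (Fin 3 →₀ ℕ) → ℤ := fun μ => ((μ 0 + 3 * μ 2 + L * (μ 0 + μ 1 + μ 2) : ℕ) : ℤ)
  have hp : ∀ μ ∈ s, ∀ μ' ∈ s, p μ = p μ' → μ = μ' := by
    intro μ hμ μ' hμ' he
    have h1 : μ 0 + 3 * μ 2 + L * (μ 0 + μ 1 + μ 2) =
        μ' 0 + 3 * μ' 2 + L * (μ' 0 + μ' 1 + μ' 2) := by
      simp only [p] at he
      exact_mod_cast he
    have h2 := congrArg (· % L) h1
    simp only [Nat.add_mul_mod_self_left, Nat.mod_eq_of_lt (hL μ hμ),
      Nat.mod_eq_of_lt (hL μ' hμ')] at h2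
    have hL0 : 0 < L := lt_of_le_of_lt (Nat.zero_le _) (hL μ hμ)
    have h3 : μ 0 + μ 1 + μ 2 = μ' 0 + μ' 1 + μ' 2 := by
      rw [h2] at h1
      exact Nat.eq_of_mul_eq_mul_left hL0 (Nat.add_left_cancel h1)
    have h4 := hs μ hμ
    have h5 := hs μ' hμ'
    ext j
    fin_cases j <;> simp <;> omega
  obtain ⟨n₀, ⟨μ₀, hμ₀, hn₀⟩, hsum⟩ := exists_low_sum s (RingHom.id ℂ)
    (fun μ => HahnSeries.C (c μ))
    ⟨μ₁, hμ₁, (map_ne_zero_iff _ (RingHom.injective _)).mpr hc₁⟩ p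
    (fun μ => chi L (∏ j, th0 j ^ μ j)) (fun μ => (-1) ^ (μ 0 + μ 1)) (fun μ _ => low_chi L μ)
  have hz : ∑ μ ∈ s, hmap (RingHom.id ℂ) (HahnSeries.C (c μ)) * chi L (∏ j, th0 j ^ μ j) = 0 := by
    have := congrArg (chi L) h
    rw [map_sum, map_zero] at this
    rw [← this]
    refine Finset.sum_congr rfl fun μ _ => ?_
    rw [map_mul, chi_algebraMap, hmap_C]
    rfl
  have hp0 : n₀ - p μ₀ = 0 := by
    by_contra h0
    exact hn₀ (by simp [HahnSeries.coeff_single_of_ne h0])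
  rw [hz, Finset.sum_eq_single_of_mem μ₀ hμ₀] at hsum
  · simp only [HahnSeries.coeff_zero, RingHom.id_apply] at hsum
    exact mul_ne_zero hn₀ (pow_ne_zero _ (by norm_num)) hsum.symm
  · intro μ hμ hne
    have h0 : n₀ - p μ ≠ 0 := fun h0 => hne (hp μ hμ μ₀ hμ₀ (by omega))
    simp [HahnSeries.coeff_single_of_ne h0]

/-- Chart `0` by `exists_low_sum` and `th0_indep`, chart `ν` by `Rel.eval₂` for the shear. -/
theorem IsTheta.indep {N ν : ℤ} (hN : 1 ≤ N) {Θ : Fin 3 → R} (h : IsTheta N ν Θ)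
    (P : MvPolynomial (Fin 3) K) (hP : P ≠ 0) (hn : Normal P) : eval₂ aK Θ P ≠ 0 := by
  intro h0
  obtain ⟨Θ₀, hΘ₀⟩ := exists_theta N 0 hN
  have hrel := Rel.eval₂ (σ := R259.shear ν) (fun n => by simp [shear_apply]) (hΘ₀.shear h) P
  have h1 : eval₂ aK Θ₀ P = 0 := by
    refine ext_cf fun γ => ?_
    rw [← hrel γ, h0]
    simp [cf]
  obtain ⟨μ₁, hμ₁⟩ := support_nonempty.mpr hP
  obtain ⟨n₀, ⟨μ₀, hμ₀, hn₀⟩, hsum⟩ := exists_low_sum P.support (algebraMap ℂ B)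
    (fun μ => P.coeff μ) ⟨μ₁, hμ₁, mem_support_iff.mp hμ₁⟩ (fun _ => 0)
    (fun μ => ∏ j, Θ₀ j ^ μ j) (fun μ => ∏ j, th0 j ^ μ j)
    (fun μ _ => Low.prod_pow (hΘ₀.low hN) μ)
  rw [eval₂_eq'] at h1
  have h2 : ∑ μ ∈ P.support, hmap (algebraMap ℂ B) (P.coeff μ) * ∏ j, Θ₀ j ^ μ j = 0 := h1
  rw [h2] at hsum
  exact hn₀ (th0_indep P.support hn (fun μ => (P.coeff μ).coeff (n₀ - 0)) hsum.symm μ₀ hμ₀)

end Crest.Agent.R259
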