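import Crest.Agent.R259.Defs

/-! # Row 259 (Nagata): lowest terms and coefficient ideals of Laurent series -/

set_option autoImplicit false

namespace Crest.Agent.R259
open MvPolynomial

section
variable {A A₀ : Type*} [CommRing A] [CommRing A₀]

theorem Low.mul {n n' : ℤ} {x y : HahnSeries ℤ A} {c c' : A} (h : Low n x c) (h' : Low n' y c') :
    Low (n + n') (x * y) (c * c') := by
  have key : ∀ j ≤ n + n', ∀ ij ∈ Finset.antidiagonal x.isPWO_support y.isPWO_support j,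
      ij = (n, n') ∧ j = n + n' := by
    intro j hj ij hij
    obtain ⟨h1, h2, h3⟩ := Finset.mem_antidiagonal.1 hij
    have h4 : n ≤ ij.1 := not_lt.1 fun hl => h1 (h.1 _ hl)
    have h5 : n' ≤ ij.2 := not_lt.1 fun hl => h2 (h'.1 _ hl)
    exact ⟨Prod.ext (by simp only; omega) (by simp only; omega), by omega⟩
  refine ⟨fun j hj => ?_, ?_⟩
  · rw [HahnSeries.coeff_mul]
    exact Finset.sum_eq_zero fun ij hij => absurd (key j hj.le ij hij).2 hj.ne
  · rw [HahnSeries.coeff_mul, Finset.sum_eq_single (n, n') (fun ij hij hne => absurd (key _ le_rfl ij hij).1 hne),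
      h.2, h'.2]
    intro hn
    by_contra hne
    exact hn (Finset.mem_antidiagonal.2 ⟨left_ne_zero_of_mul hne, right_ne_zero_of_mul hne, rfl⟩)

theorem Low.add {n : ℤ} {x y : HahnSeries ℤ A} {c c' : A} (h : Low n x c) (h' : Low n y c') :
    Low n (x + y) (c + c') :=
  ⟨fun j hj => by rw [HahnSeries.coeff_add, h.1 j hj, h'.1 j hj, add_zero],
    by rw [HahnSeries.coeff_add, h.2, h'.2]⟩

theorem low_C (c : A) : Low 0 (HahnSeries.C c : HahnSeries ℤ A) c :=
  ⟨fun _ hj => HahnSeries.coeff_single_of_ne hj.ne, HahnSeries.coeff_single_same _ _⟩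

theorem low_single (n : ℤ) (c : A) : Low n (HahnSeries.single n c : HahnSeries ℤ A) c :=
  ⟨fun _ hj => HahnSeries.coeff_single_of_ne hj.ne, HahnSeries.coeff_single_same _ _⟩

theorem Low.pow {n : ℤ} {x : HahnSeries ℤ A} {c : A} (h : Low n x c) (k : ℕ) :
    Low (k * n) (x ^ k) (c ^ k) := by
  induction k with
  | zero => simpa using low_C (1 : A)
  | succ k ih =>
    have := ih.mul h
    rwa [← pow_succ, ← pow_succ, ← add_one_mul, ← Nat.cast_succ] at this

theorem Low.mono {n n' : ℤ} {x : HahnSeries ℤ A} {c : A} (h : Low n x c) (hn : n' < n) :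
    Low n' x 0 :=
  ⟨fun j hj => h.1 j (hj.trans hn), h.1 n' hn⟩

theorem Low.prod_pow {σ : Type*} [Fintype σ] {Θ : σ → HahnSeries ℤ A} {θ : σ → A}
    (h : ∀ j, Low 0 (Θ j) (θ j)) (μ : σ → ℕ) : Low 0 (∏ j, Θ j ^ μ j) (∏ j, θ j ^ μ j) := by
  classical
  have : ∀ s : Finset σ, Low 0 (∏ j ∈ s, Θ j ^ μ j) (∏ j ∈ s, θ j ^ μ j) := fun s => by
    induction s using Finset.induction_on with
    | empty => simpa using low_C (1 : A)
    | insert a s ha ih =>
      rw [Finset.prod_insert ha, Finset.prod_insert ha]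
      simpa using ((h a).pow (μ a)).mul ih
  exact this _

/-- `n₀` is the minimum of `order (e μ) + p μ` over the `μ ∈ s` with `e μ ≠ 0`. -/
theorem exists_low_sum {ι : Type*} (s : Finset ι) (φ : A₀ →+* A) (e : ι → HahnSeries ℤ A₀)
    (he : ∃ μ ∈ s, e μ ≠ 0) (p : ι → ℤ) (W : ι → HahnSeries ℤ A) (w : ι → A)
    (hW : ∀ μ ∈ s, Low (p μ) (W μ) (w μ)) :
    ∃ n₀ : ℤ, (∃ μ ∈ s, (e μ).coeff (n₀ - p μ) ≠ 0) ∧
      (∑ μ ∈ s, hmap φ (e μ) * W μ).coeff n₀ = ∑ μ ∈ s, φ ((e μ).coeff (n₀ - p μ)) * w μ := by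
  classical
  obtain ⟨μ₀, hμ₀, hmin⟩ := (s.filter fun μ => e μ ≠ 0).exists_min_image (fun μ => (e μ).order + p μ)
    (by obtain ⟨μ, h1, h2⟩ := he; exact ⟨μ, Finset.mem_filter.2 ⟨h1, h2⟩⟩)
  obtain ⟨h1, h2⟩ := Finset.mem_filter.1 hμ₀
  refine ⟨(e μ₀).order + p μ₀, ⟨μ₀, h1, ?_⟩, ?_⟩
  · rw [add_sub_cancel_right]
    exact fun h => h2 (HahnSeries.coeff_order_eq_zero.1 h)
  · rw [HahnSeries.coeff_sum]
    refine Finset.sum_congr rfl fun μ hμ => ?_
    have h3 : Low ((e μ₀).order + p μ₀ - p μ) (hmap φ (e μ)) (φ ((e μ).coeff ((e μ₀).order + p μ₀ - p μ))) := by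
      refine ⟨fun j hj => ?_, rfl⟩
      rw [hmap_coeff]
      by_cases h0 : e μ = 0
      · simp [h0]
      · have := hmin μ (Finset.mem_filter.2 ⟨hμ, h0⟩)
        rw [HahnSeries.coeff_eq_zero_of_lt_order (by omega), map_zero]
    have := (h3.mul (hW μ hμ)).2
    rwa [sub_add_cancel] at this

theorem CI_mono {I J : Ideal A} (h : I ≤ J) : CI I ≤ CI J :=
  fun _ hx n => h (hx n)

theorem CI_mul (I J : Ideal A) : CI I * CI J ≤ CI (I * J) := by
  refine Ideal.mul_le.2 fun x hx y hy n => ?_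
  rw [HahnSeries.coeff_mul]
  exact Ideal.sum_mem _ fun ij _ => Ideal.mul_mem_mul (hx _) (hy _)

theorem CI_pow (I : Ideal A) (m : ℕ) : CI I ^ m ≤ CI (I ^ m) := by
  induction m with
  | zero => intro x _ n; simp
  | succ m ih =>
    rw [pow_succ, pow_succ]
    exact (Ideal.mul_mono_left ih).trans (CI_mul _ _)

theorem hmap_C (φ : A₀ →+* A) (c : A₀) : hmap φ (HahnSeries.C c) = HahnSeries.C (φ c) := by
  ext n
  rw [hmap_coeff, HahnSeries.C_apply, HahnSeries.C_apply, HahnSeries.coeff_single, HahnSeries.coeff_single]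
  split_ifs <;> simp

end

end Crest.Agent.R259
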