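import Crest.Agent.R259.Defs

/-! # Row 259 (Nagata): moments and evaluation ideals -/

set_option autoImplicit false

namespace Crest.Agent.R259
open MvPolynomial

/-- multiply the coefficient of `β` by `χ β` -/
noncomputable def momD (χ : ℤ × ℤ → ℂ) (g : B) : B :=
  ⟨Finsupp.onFinset g.coeff.support (fun β => g.coeff β * χ β) fun _ h =>
    Finsupp.mem_support_iff.2 (left_ne_zero_of_mul h)⟩

theorem momD_coeff (χ : ℤ × ℤ → ℂ) (g : B) (β : ℤ × ℤ) : (momD χ g).coeff β = g.coeff β * χ β := rfl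

theorem momD_add (χ : ℤ × ℤ → ℂ) (g g' : B) : momD χ (g + g') = momD χ g + momD χ g' := by
  apply AddMonoidAlgebra.coeff_injective
  ext β
  simp [momD_coeff, add_mul]

theorem momD_zero (χ : ℤ × ℤ → ℂ) : momD χ 0 = 0 := by
  apply AddMonoidAlgebra.coeff_injective
  ext β
  simp [momD_coeff]

theorem momD_single (χ : ℤ × ℤ → ℂ) (β : ℤ × ℤ) (c : ℂ) :
    momD χ (AddMonoidAlgebra.single β c) = AddMonoidAlgebra.single β (c * χ β) := by
  apply AddMonoidAlgebra.coeff_injective
  ext β'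
  rw [momD_coeff, AddMonoidAlgebra.coeff_single, AddMonoidAlgebra.coeff_single, Finsupp.single_apply,
    Finsupp.single_apply]
  split_ifs with h
  · rw [h]
  · simp

theorem momD_mul {χ : ℤ × ℤ → ℂ} (hχ : ∀ a b, χ (a + b) = χ a + χ b) (x y : B) :
    momD χ (x * y) = momD χ x * y + x * momD χ y := by
  induction x using AddMonoidAlgebra.induction_linear with
  | zero => simp [momD_zero]
  | add x x' hx hx' => rw [add_mul, momD_add, hx, hx', momD_add]; ring
  | single a c =>
    induction y using AddMonoidAlgebra.induction_linear with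
    | zero => simp [momD_zero]
    | add y y' hy hy' => rw [mul_add, momD_add, hy, hy', momD_add]; ring
    | single b d =>
      simp only [AddMonoidAlgebra.single_mul_single, momD_single, hχ]
      rw [← AddMonoidAlgebra.single_add]
      congr 1; ring

theorem momD_pow {χ : ℤ × ℤ → ℂ} (hχ : ∀ a b, χ (a + b) = χ a + χ b) (I : Ideal B) (n : ℕ) :
    ∀ g ∈ I ^ (n + 1), momD χ g ∈ I ^ n := by
  induction n with
  | zero => simp
  | succ n ih =>
    intro g hg
    rw [pow_succ] at hg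
    refine Submodule.mul_induction_on hg (fun a ha b hb => ?_) fun a b ha hb => ?_
    · rw [momD_mul hχ]
      refine Ideal.add_mem _ ?_ (Ideal.mul_mem_right _ _ ha)
      rw [pow_succ]
      exact Ideal.mul_mem_mul (ih a ha) hb
    · rw [momD_add]; exact Ideal.add_mem _ ha hb

theorem momD_iter {χ : ℤ × ℤ → ℂ} (hχ : ∀ a b, χ (a + b) = χ a + χ b) (I : Ideal B) (k n : ℕ) (g : B)
    (hg : g ∈ I ^ (n + k)) : ∃ g' ∈ I ^ n, ∀ β, g'.coeff β = g.coeff β * χ β ^ k := by
  induction k generalizing g with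
  | zero => exact ⟨g, hg, by simp⟩
  | succ k ih =>
    obtain ⟨g', h1, h2⟩ := ih _ (momD_pow hχ I (n + k) g hg)
    exact ⟨g', h1, fun β => by rw [h2, momD_coeff]; ring⟩

/-- Moments.  The maps `D₁ : single β c ↦ single β (β.1 c)`, `D₂ : single β c ↦ single β (β.2 c)`
are derivations of `B`, a derivation maps `I^(n+1)` into `I^n`; evaluate `D₁^α D₂^γ g`. -/
theorem moment (z : ℂˣ) (m : ℕ) (g : B) (hg : g ∈ RingHom.ker (ev z) ^ m) (α γ : ℕ)
    (h : α + γ < m) :
    ∑ β ∈ g.coeff.support, g.coeff β * (β.1 : ℂ) ^ α * (β.2 : ℂ) ^ γ * (z : ℂ) ^ β.1 = 0 := by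
  obtain ⟨n, rfl⟩ : ∃ n, m = n + 1 + γ + α := ⟨m - 1 - γ - α, by omega⟩
  obtain ⟨g₁, h1, e1⟩ := momD_iter (χ := fun β => (β.1 : ℂ)) (fun a b => by simp) _ α _ g hg
  obtain ⟨g₂, h2, e2⟩ := momD_iter (χ := fun β => (β.2 : ℂ)) (fun a b => by simp) _ γ _ g₁ h1
  have h3 : ev z g₂ = 0 := Ideal.pow_le_self (Nat.succ_ne_zero n) h2
  rw [ev_apply] at h3
  rw [← h3]
  symm
  refine (Finset.sum_subset (fun β hβ => ?_) fun β _ hβ => ?_).trans
    (Finset.sum_congr rfl fun β _ => by rw [e2, e1])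
  · rw [Finsupp.mem_support_iff, e2, e1] at hβ
    exact Finsupp.mem_support_iff.2 (left_ne_zero_of_mul (left_ne_zero_of_mul hβ))
  · rw [Finsupp.notMem_support_iff.1 hβ, zero_mul]

/-- A nonzero element of `B` of pure `v`-degree vanishes at finitely many `z`, so there are `r`
distinct points where it does not vanish. -/
theorem exists_points (r : ℕ) (h : B) (h0 : h ≠ 0) (e : ℤ) (he : ∀ β ∈ h.coeff.support, β.2 = e) :
    ∃ z : Fin r → ℂˣ, Function.Injective z ∧ ∀ i, ev (z i) h ≠ 0 := by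
  classical
  set M : ℕ := h.coeff.support.sup fun β => β.1.natAbs with hM
  have hMb : ∀ β ∈ h.coeff.support, 0 ≤ β.1 + M := fun β hβ => by
    have : β.1.natAbs ≤ M := Finset.le_sup (f := fun β : ℤ × ℤ => β.1.natAbs) hβ
    omega
  set p : Polynomial ℂ := ∑ β ∈ h.coeff.support, Polynomial.monomial (β.1 + M).toNat (h.coeff β) with hp
  have hp0 : p ≠ 0 := by
    obtain ⟨β, hβ⟩ : h.coeff.support.Nonempty :=
      Finsupp.support_nonempty_iff.2 fun h1 => h0 (AddMonoidAlgebra.coeff_eq_zero.1 h1)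
    intro h1
    have h2 : p.coeff (β.1 + M).toNat = h.coeff β := by
      rw [hp, Polynomial.finsetSum_coeff, Finset.sum_eq_single β]
      · simp
      · intro β' hβ' hne
        rw [Polynomial.coeff_monomial, if_neg]
        intro h3
        refine hne (Prod.ext ?_ ((he _ hβ').trans (he _ hβ).symm))
        have := hMb _ hβ
        have := hMb _ hβ'
        omega
      · exact fun h3 => absurd hβ h3
    rw [h1] at h2
    exact Finsupp.mem_support_iff.1 hβ h2.symm
  have hev : ∀ z : ℂˣ, p.eval (z : ℂ) = ev z h * (z : ℂ) ^ (M : ℤ) := fun z => by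
    rw [hp, Polynomial.eval_finsetSum, ev_apply, Finset.sum_mul]
    refine Finset.sum_congr rfl fun β hβ => ?_
    rw [Polynomial.eval_monomial, mul_assoc, ← zpow_add₀ z.ne_zero, ← zpow_natCast,
      Int.toNat_of_nonneg (hMb β hβ)]
  have hinf : ({x : ℂ | p.IsRoot x} ∪ {0})ᶜ.Infinite :=
    ((Polynomial.finite_setOfPred_isRoot hp0).union (Set.finite_singleton _)).infinite_compl
  let ι := hinf.natEmbedding
  have hι : ∀ n, ¬ p.IsRoot (ι n : ℂ) ∧ (ι n : ℂ) ≠ 0 := fun n =>
    ⟨fun h1 => (ι n).2 (Or.inl h1), fun h1 => (ι n).2 (Or.inr h1)⟩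
  refine ⟨fun i => Units.mk0 (ι i) (hι i).2, fun i j hij => ?_, fun i h1 => (hι i).1 ?_⟩
  · have h1 : (ι i : ℂ) = ι j := congrArg Units.val hij
    exact Fin.ext (ι.injective (Subtype.ext h1))
  · have := hev (Units.mk0 (ι i) (hι i).2)
    rw [h1, zero_mul] at this
    exact this

/-- Cancel a factor that does not vanish at the point: with `c = ev u`, `ι = u - c ∈ ker`,
`c^m - (-ι)^m` is a multiple of `c + ι = u`. -/
theorem cancel_unit (z : ℂˣ) (m : ℕ) (u g : B) (hu : ev z u ≠ 0)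
    (h : u * g ∈ RingHom.ker (ev z) ^ m) : g ∈ RingHom.ker (ev z) ^ m := by
  set c : B := algebraMap ℂ B (ev z u) with hc
  have h1 : c - u ∈ RingHom.ker (ev z) := by
    rw [RingHom.mem_ker, map_sub, hc, AlgHom.commutes]; simp
  obtain ⟨w, hw⟩ := sub_dvd_pow_sub_pow c (c - u) m
  have h2 : c ^ m * g ∈ RingHom.ker (ev z) ^ m := by
    have : c ^ m * g = w * (u * g) + (c - u) ^ m * g := by
      rw [sub_sub_cancel] at hw
      linear_combination g * hw
    rw [this]
    exact Ideal.add_mem _ (Ideal.mul_mem_left _ _ h)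
      (Ideal.mul_mem_right _ _ (Ideal.pow_mem_pow h1 m))
  have h3 := Ideal.mul_mem_left _ (algebraMap ℂ B ((ev z u) ^ m)⁻¹) h2
  rwa [← mul_assoc, hc, ← map_pow (algebraMap ℂ B), ← map_mul, inv_mul_cancel₀ (pow_ne_zero _ hu), map_one,
    one_mul] at h3

end Crest.Agent.R259
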