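import Crest.Agent.R259.Low

/-! # Row 259 (Nagata): normal forms modulo the cubic and first-order expansion -/

set_option autoImplicit false

namespace Crest.Agent.R259
open MvPolynomial

/-- Every monomial of degree `e` is a combination of the `F^p · monomial μ`, `μ 0 ≤ 2`,
`|μ| + 3p = e`, where `F = X₀³ - H` (strong induction on the `X₀`-exponent, all `e` at once). -/
theorem mem_span_normal {O : Type*} [CommRing O] (H : MvPolynomial (Fin 3) O)
    (hH : H.IsHomogeneous 3) (hHn : Normal H) (e : ℕ) (f : MvPolynomial (Fin 3) O)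
    (hf : f.IsHomogeneous e) :
    f ∈ Submodule.span O {x | ∃ (p : ℕ) (μ : Fin 3 →₀ ℕ), μ 0 ≤ 2 ∧ μ.degree + 3 * p = e ∧
      x = (X 0 ^ 3 - H) ^ p * monomial μ 1} := by
  have key : ∀ (n : ℕ) (μ : Fin 3 →₀ ℕ), μ 0 = n → monomial μ (1 : O) ∈
      Submodule.span O {x | ∃ (p : ℕ) (ν : Fin 3 →₀ ℕ), ν 0 ≤ 2 ∧ ν.degree + 3 * p = μ.degree ∧
        x = (X 0 ^ 3 - H) ^ p * monomial ν 1} := by
    intro n
    induction n using Nat.strong_induction_on with
    | _ n ih =>
      intro μ hμ
      by_cases h2 : μ 0 ≤ 2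
      · exact Submodule.subset_span ⟨0, μ, h2, by simp, by simp⟩
      obtain ⟨μ', rfl⟩ : ∃ μ', μ = Finsupp.single 0 3 + μ' :=
        ⟨μ - Finsupp.single 0 3, by
          rw [add_tsub_cancel_of_le]
          rw [Finsupp.single_le_iff]; omega⟩
      have hμ' : μ' 0 + 3 = n := by simpa [add_comm] using hμ
      have hdeg : (Finsupp.single (0 : Fin 3) 3 + μ').degree = μ'.degree + 3 := by
        rw [map_add, Finsupp.degree_single, add_comm]
      have e1 : monomial (Finsupp.single (0 : Fin 3) 3 + μ') (1 : O) =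
          (X 0 ^ 3 - H) * monomial μ' 1 + H * monomial μ' 1 := by
        rw [monomial_single_add]; ring
      rw [e1, hdeg]
      refine Submodule.add_mem _ ?_ ?_
      · have h1 := ih (μ' 0) (by omega) μ' rfl
        generalize monomial μ' (1 : O) = y at h1
        induction h1 using Submodule.span_induction with
        | mem x hx =>
          obtain ⟨p, ν, h1, h2, rfl⟩ := hx
          exact Submodule.subset_span ⟨p + 1, ν, h1, by omega, by ring⟩
        | zero => simp
        | add x y _ _ hx hy => rw [mul_add]; exact Submodule.add_mem _ hx hy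
        | smul c x _ hx => rw [mul_smul_comm]; exact Submodule.smul_mem _ _ hx
      · have e2 : H * monomial μ' 1 = ∑ ν ∈ H.support, coeff ν H • monomial (ν + μ') (1 : O) := by
          conv_lhs => rw [H.as_sum, Finset.sum_mul]
          refine Finset.sum_congr rfl fun ν _ => ?_
          rw [monomial_mul, smul_monomial, smul_eq_mul]
        rw [e2]
        refine Submodule.sum_mem _ fun ν hν => Submodule.smul_mem _ _ ?_
        have h3 : ν.degree = 3 := by
          have := hH (mem_support_iff.1 hν)
          rw [Finsupp.degree_eq_weight_one]; exact this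
        have h4 := hHn ν hν
        have h5 := ih ((ν + μ') 0) (by simp only [Finsupp.add_apply]; omega) (ν + μ') rfl
        rwa [map_add, h3, add_comm 3] at h5
  rw [f.as_sum]
  refine Submodule.sum_mem _ fun μ hμ => ?_
  have h3 : μ.degree = e := by
    have := hf (mem_support_iff.1 hμ)
    rw [Finsupp.degree_eq_weight_one]; exact this
  have := Submodule.smul_mem _ (coeff μ f) (key _ μ rfl)
  rwa [smul_monomial, smul_eq_mul, mul_one, h3] at this

theorem span_low2_of {S : Type*} [CommRing S] {x : HahnSeries ℤ S} (h : ∀ j < 2, x.coeff j = 0) :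
    ∃ w, Low 2 x w := ⟨_, h, rfl⟩

/-- First-order Taylor expansion in `s` at `y`: the value at `Φ = y + s e₀` has `s⁰`-coefficient
`P(y)`, `s¹`-coefficient `(∂₀P)(y)` and nothing below (induction on `P`). -/
theorem taylor_one {K' S : Type*} [CommRing K'] [CommRing S] (a : K' →+* S) (y : Fin 3 → S)
    (P : MvPolynomial (Fin 3) K') :
    ∃ W : HahnSeries ℤ S, ∃ w : S, Low 2 W w ∧
      eval₂ (HahnSeries.C.comp a)
        (fun j => HahnSeries.C (y j) + if j = 0 then HahnSeries.single 1 1 else 0) P =
      HahnSeries.C (eval₂ a y P) + HahnSeries.single 1 (eval₂ a y (pderiv 0 P)) + W := by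
  induction P using MvPolynomial.induction_on with
  | C c => exact ⟨0, 0, ⟨fun _ _ => rfl, rfl⟩, by simp⟩
  | add p q hp hq =>
    obtain ⟨W, w, h1, h2⟩ := hp
    obtain ⟨W', w', h1', h2'⟩ := hq
    refine ⟨W + W', w + w', h1.add h1', ?_⟩
    rw [eval₂_add, h2, h2', eval₂_add, map_add, map_add, eval₂_add, HahnSeries.single_add]
    ring
  | mul_X p j hp =>
    obtain ⟨W, w, h1, h2⟩ := hp
    have hs : ∀ c : S, (HahnSeries.single (1 : ℤ) c : HahnSeries ℤ S) =
        HahnSeries.C c * HahnSeries.single 1 1 := fun c => by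
      rw [HahnSeries.C_apply, HahnSeries.single_mul_single]; simp
    have hW : Low 2 (W * HahnSeries.C (y j)) (w * y j) := by
      simpa using h1.mul (low_C (y j))
    by_cases hj : j = 0
    · subst hj
      have a1 : Low 2 (W * HahnSeries.single (1 : ℤ) 1) 0 :=
        (h1.mul (low_single 1 1)).mono (by norm_num)
      have a2 : Low 2 (HahnSeries.single (1 : ℤ) (eval₂ a y (pderiv 0 p)) * HahnSeries.single (1 : ℤ) 1)
          (eval₂ a y (pderiv 0 p) * 1) := (low_single 1 _).mul (low_single 1 1)
      refine ⟨_, _, (hW.add a1).add a2, ?_⟩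
      rw [eval₂_mul, h2, eval₂_X, if_pos rfl, Derivation.leibniz, pderiv_X_self]
      simp only [smul_eq_mul, mul_one, eval₂_add, eval₂_mul, eval₂_X, map_mul]
      rw [hs (_ + _), hs (eval₂ a y (pderiv 0 p)), map_add, map_mul]
      ring
    · refine ⟨_, _, hW, ?_⟩
      rw [eval₂_mul, h2, eval₂_X, if_neg hj, Derivation.leibniz, pderiv_X_of_ne hj]
      simp only [smul_eq_mul, mul_zero, zero_add, add_zero, eval₂_mul, eval₂_X, map_mul]
      rw [hs (_ * _), hs (eval₂ a y (pderiv 0 p)), map_mul]
      ring

end Crest.Agent.R259
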