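import Crest.Agent.R259.Low
import Crest.Agent.R259.Conv

/-! # Row 259 (Nagata): theta series -/

set_option autoImplicit false

namespace Crest.Agent.R259
open MvPolynomial

theorem eE_nonneg (k : ℤ) : 0 ≤ eE k := by
  unfold eE
  split_ifs with h
  · obtain ⟨l, rfl⟩ : ∃ l, k = 3 * l := ⟨k / 3, by omega⟩
    rcases le_or_gt l 0 with h' | h' <;> nlinarith
  · rcases le_or_gt k 1 with h' | h' <;> nlinarith

theorem eE_ge (k : ℤ) : k ^ 2 - 3 * k ≤ eE k := by
  unfold eE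
  split_ifs <;> omega

theorem eE_add (k : ℤ) : eE (k + 3) = eE k + 6 * k := by
  unfold eE
  rw [show (k + 3) % 3 = k % 3 by omega]
  ring

theorem wt_add (j : Fin 3) (k : ℤ) : wt j (k + 3) = wt j k := by
  unfold wt
  rw [show (k + 3) % 3 = k % 3 by omega]

theorem eE_eq_zero {k : ℤ} (h : eE k = 0) : k = 0 ∨ k = 1 ∨ k = 2 ∨ k = 3 := by
  have h1 := eE_ge k
  have h2 : 0 ≤ k := by nlinarith
  have h3 : k ≤ 3 := by nlinarith
  omega


theorem exists_theta (N ν : ℤ) (hN : 1 ≤ N) : ∃ Θ : Fin 3 → R, IsTheta N ν Θ := by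
  have key : ∀ j : Fin 3, ∃ x : R, ∀ γ : ℤ × ℤ × ℤ,
      cf x γ = if γ.2.2 = 1 ∧ γ.1 = N * eE γ.2.1 - ν * γ.2.1 then wt j γ.2.1 else 0 := by
    intro j
    refine exists_hahn _ fun n => ?_
    refine ((Set.finite_Icc (-(|n| + |ν| + 4)) (|n| + |ν| + 4)).image
      fun k => (N * eE k - ν * k, k, (1 : ℤ))).subset ?_
    rintro ⟨a, k, i⟩ ⟨h1, h2⟩
    obtain ⟨h3, h4⟩ : i = 1 ∧ a = N * eE k - ν * k := by
      by_contra h
      exact h2 (if_neg h)
    refine ⟨k, abs_le.1 ?_, by rw [h3, h4]⟩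
    by_contra h
    have h5 : |n| + |ν| + 4 < |k| := not_le.1 h
    have h6 : eE k ≤ N * eE k := le_mul_of_one_le_left (eE_nonneg k) hN
    have h7 : ν * k ≤ |ν| * |k| := (le_abs_self _).trans_eq (abs_mul _ _)
    have h8 := eE_ge k
    have h9 : a ≤ n := h1
    nlinarith [abs_nonneg n, abs_nonneg ν, le_abs_self n, le_abs_self k, sq_abs k]
  choose Θ hΘ using key
  exact ⟨Θ, hΘ⟩

theorem IsTheta.vdeg {N ν : ℤ} {Θ : Fin 3 → R} (h : IsTheta N ν Θ) (j : Fin 3) :
    VDeg 1 (Θ j) := by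
  intro γ hγ
  rw [h] at hγ
  by_contra h'
  exact hγ (if_neg fun h'' => h' h''.1)

/-- `eE (k+3) = eE k + 6k`, `wt j (k+3) = wt j k`. -/
theorem IsTheta.inv {N ν : ℤ} {Θ : Fin 3 → R} (h : IsTheta N ν Θ) (j : Fin 3) :
    Rel (sig N ν) (Θ j) (Θ j) := by
  rintro ⟨n, k, i⟩
  rw [h, h, sig_apply]
  by_cases hi : i = 1
  · subst hi
    simp only [mul_one, eE_add, wt_add, true_and]
    refine if_congr ?_ rfl rfl
    constructor <;> intro h' <;> linarith
  · simp [hi]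

theorem IsTheta.shear {N ν : ℤ} {Θ Θ' : Fin 3 → R} (h : IsTheta N 0 Θ) (h' : IsTheta N ν Θ')
    (j : Fin 3) : Rel (shear ν) (Θ j) (Θ' j) := by
  rintro ⟨n, k, i⟩
  rw [h, h', shear_apply]
  refine if_congr (and_congr Iff.rfl ?_) rfl rfl
  constructor <;> intro h' <;> linarith

/-- The constant terms in chart `0`: `z(1+z)v`, `zv`, `(1+z)³v`. -/
noncomputable def th0 : Fin 3 → B :=
  ![AddMonoidAlgebra.single (1, 1) 1 * (1 + AddMonoidAlgebra.single (1, 0) 1),
    AddMonoidAlgebra.single (1, 1) 1,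
    AddMonoidAlgebra.single (0, 1) 1 * (1 + AddMonoidAlgebra.single (1, 0) 1) ^ 3]

theorem th0_eq (j : Fin 3) : th0 j = ∑ k ∈ ({0, 1, 2, 3} : Finset ℤ), AddMonoidAlgebra.single (k, 1) (wt j k) := by
  have e3 : ∀ x : B, (1 + x) ^ 3 = 1 + x + x + x + x * x + x * x + x * x + x * x * x := fun x => by ring
  have s3 : ∀ β : ℤ × ℤ, AddMonoidAlgebra.single β (3 : ℂ) =
      AddMonoidAlgebra.single β 1 + AddMonoidAlgebra.single β 1 + AddMonoidAlgebra.single β 1 := fun β => by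
    rw [← AddMonoidAlgebra.single_add, ← AddMonoidAlgebra.single_add]
    norm_num
  fin_cases j
  · simp [th0, wt, mul_add, AddMonoidAlgebra.single_mul_single]
  · simp [th0, wt]
  · simp [th0, wt, e3, s3, mul_add, AddMonoidAlgebra.single_mul_single, add_assoc]


/-- `eE k ≥ 0` with equality iff `k ∈ {0,1,2,3}`. -/
theorem IsTheta.low {N : ℤ} (hN : 1 ≤ N) {Θ : Fin 3 → R} (h : IsTheta N 0 Θ) (j : Fin 3) :
    Low 0 (Θ j) (th0 j) := by
  refine ⟨fun n hn => ?_, ?_⟩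
  · ext ⟨k, i⟩
    refine (h j (n, k, i)).trans (if_neg fun h' => ?_)
    have := mul_nonneg (by omega : 0 ≤ N) (eE_nonneg k)
    have h2 := h'.2
    simp only [zero_mul, sub_zero] at h2
    omega
  · ext ⟨k, i⟩
    refine (h j (0, k, i)).trans ?_
    rw [th0_eq, AddMonoidAlgebra.coeff_sum, Finsupp.finsetSum_apply]
    simp only [AddMonoidAlgebra.coeff_single, Finsupp.single_apply, Prod.mk.injEq, zero_mul, sub_zero]
    by_cases hi : i = 1
    · subst hi
      simp only [and_true, true_and, Finset.sum_ite_eq']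
      refine if_congr ⟨fun h' => ?_, fun h' => ?_⟩ rfl rfl
      · simpa using eE_eq_zero ((mul_eq_zero.1 h'.symm).resolve_left (by omega))
      · simp only [Finset.mem_insert, Finset.mem_singleton] at h'
        rcases h' with rfl | rfl | rfl | rfl <;> simp [eE]
    · simp [hi, Ne.symm hi]

end Crest.Agent.R259
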