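import Crest.Agent.R259.Defs

/-! # Row 259 (Nagata): reduction to uniform multiplicities -/

set_option autoImplicit false

namespace Crest.Agent.R259
open MvPolynomial

/-- Product over the cyclic shifts `p (· + c)` of the tuple has degree `≤ r d` and multiplicity
`μ = ∑ m i` everywhere, `(r d)² ≤ r μ²`.  Its 21st power has degree `≤ 3 (7 r d)` and multiplicity
`m' = 21 μ ≥ 21`; take `a = max (7 r d) (m' + 1)`. -/
theorem uniform (r : ℕ) (hr : 10 ≤ r) (d : ℕ) (hd : 1 ≤ d) (m : Fin r → ℕ)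
    (hm : (d : ℝ) * Real.sqrt (r : ℝ) ≤ ∑ i, (m i : ℝ))
    (h : ∀ p : Fin r → Fin 2 → ℂ, ∃ f : MvPolynomial (Fin 2) ℂ, f ≠ 0 ∧ f.totalDegree ≤ d ∧
      ∀ i, f ∈ mI (p i) ^ m i) :
    ∃ a m' : ℕ, 1 ≤ m' ∧ m' < a ∧ 9 * a ^ 2 ≤ r * m' ^ 2 ∧
      ∀ p : Fin r → Fin 2 → ℂ, ∃ f : MvPolynomial (Fin 2) ℂ, f ≠ 0 ∧ f.totalDegree ≤ 3 * a ∧
        ∀ i, f ∈ mI (p i) ^ m' := by
  have : NeZero r := ⟨by omega⟩
  set μ := ∑ i, m i with hμ
  have h1 : d ^ 2 * r ≤ μ ^ 2 := by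
    have e1 : ((d : ℝ) * Real.sqrt r) ^ 2 ≤ (μ : ℝ) ^ 2 := by
      rw [hμ, Nat.cast_sum]
      exact pow_le_pow_left₀ (by positivity) hm 2
    rw [mul_pow, Real.sq_sqrt (Nat.cast_nonneg r)] at e1
    exact_mod_cast e1
  have h2 : 1 ≤ μ := by
    by_contra h0
    have e1 : μ = 0 := by omega
    have e2 : 0 < d ^ 2 * r := by positivity
    rw [e1] at h1
    omega
  refine ⟨max (7 * r * d) (21 * μ + 1), 21 * μ, by omega, lt_max_of_lt_right (by omega), ?_, fun p => ?_⟩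
  · rcases le_total (7 * r * d) (21 * μ + 1) with h3 | h3
    · rw [max_eq_right h3]
      nlinarith [Nat.mul_le_mul_right ((21 * μ) ^ 2) hr]
    · rw [max_eq_left h3]
      nlinarith [Nat.mul_le_mul_left r h1]
  · choose f hf0 hfd hfm using fun c : Fin r => h fun i => p (i + c)
    refine ⟨(∏ c, f c) ^ 21, pow_ne_zero _ (Finset.prod_ne_zero_iff.2 fun c _ => hf0 c), ?_, fun i => ?_⟩
    · refine (totalDegree_pow _ _).trans ?_
      have e1 := (totalDegree_finsetProd Finset.univ f).trans (Finset.sum_le_sum fun c _ => hfd c)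
      rw [Finset.sum_const, Finset.card_univ, Fintype.card_fin, smul_eq_mul] at e1
      have e2 := le_max_left (7 * r * d) (21 * μ + 1)
      nlinarith
    · rw [mul_comm, pow_mul]
      refine Ideal.pow_mem_pow ?_ 21
      have e1 : μ = ∑ c, m (i - c) := (Equiv.sum_comp (Equiv.subLeft i) m).symm
      rw [e1, ← Finset.prod_pow_eq_pow_sum]
      refine Ideal.prod_mem_prod fun c _ => ?_
      simpa using hfm c (i - c)

end Crest.Agent.R259
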