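import Crest.Agent.R259.Defs
import Crest.Prelude.Def_VanishingOrder

/-! # Row 259 (Nagata): vanishing order and powers of the point ideal -/

set_option autoImplicit false

namespace Crest.Agent.R259
open MvPolynomial

namespace VanA

theorem tr_tr {A σ : Type*} [CommRing A] (P : σ → A) (f : MvPolynomial σ A) : tr (-P) (tr P f) = f := by
  have : (tr (-P)).comp (tr P) = AlgHom.id A _ := by
    ext1 j
    simp [tr]
  exact DFunLike.congr_fun this f

theorem X_sub_mem_mI {A σ : Type*} [CommRing A] (P : σ → A) (j : σ) :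
    (X j : MvPolynomial σ A) - C (P j) ∈ mI P := Ideal.subset_span (Set.mem_range_self j)

theorem map_mem_pow {S T : Type*} [CommRing S] [CommRing T] (φ : S →+* T) {I : Ideal S} {J : Ideal T}
    (h : ∀ x ∈ I, φ x ∈ J) (m : ℕ) {f : S} (hf : f ∈ I ^ m) : φ f ∈ J ^ m := by
  have h1 := Ideal.mem_map_of_mem φ hf
  rw [Ideal.map_pow] at h1
  exact Ideal.pow_right_mono (Ideal.map_le_iff_le_comap.2 h) m h1

theorem span_mem_pow {S T ι : Type*} [CommRing S] [CommRing T] (φ : S →+* T) {g : ι → S} {J : Ideal T}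
    (h : ∀ j, φ (g j) ∈ J) (m : ℕ) {f : S} (hf : f ∈ Ideal.span (Set.range g) ^ m) : φ f ∈ J ^ m :=
  map_mem_pow φ (fun _ hx => (Ideal.span_le (I := J.comap φ)).2 (Set.range_subset_iff.2 h) hx) m hf

end VanA

open VanA

/-- `tr P` carries `mI P` onto `idealOfVars` (inverse `tr (-P)`); use `mem_pow_idealOfVars_iff'`. -/
theorem mem_mI_pow_iff {A σ : Type*} [CommRing A] (P : σ → A) (m : ℕ) (f : MvPolynomial σ A) :
    f ∈ mI P ^ m ↔ ∀ α : σ →₀ ℕ, α.degree < m → (tr P f).coeff α = 0 := by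
  rw [← mem_pow_idealOfVars_iff']
  constructor
  · intro h
    exact span_mem_pow (tr P).toRingHom (fun j => by
      simpa [tr] using Ideal.subset_span (Set.mem_range_self j)) m h
  · intro h
    rw [← tr_tr P f]
    exact span_mem_pow (tr (-P)).toRingHom (fun j => by
      simpa [tr, ← sub_eq_add_neg] using X_sub_mem_mI P j) m h

theorem vanishes_iff {A σ : Type*} [CommRing A] (P : σ → A) (m : ℕ) (f : MvPolynomial σ A) :
    Crest.AlgGeometry.VanishesToOrder f P m ↔ f ∈ mI P ^ m := by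
  rw [mem_mI_pow_iff]
  constructor
  · intro h α hα
    have h1 := congrArg (coeff α) (h _ hα)
    rwa [coeff_homogeneousComponent, if_pos rfl] at h1
  · intro h k hk
    ext α
    rw [coeff_homogeneousComponent]
    split_ifs with h1
    · exact h α (h1 ▸ hk)
    · rfl

/-- Evaluate at a point congruent to `P` modulo `I`. -/
theorem eval₂_mem_pow {A S σ : Type*} [CommRing A] [CommRing S] (ψ : A →+* S) (P : σ → A)
    (Φ : σ → S) (I : Ideal S) (h : ∀ j, Φ j - ψ (P j) ∈ I) (m : ℕ) (f : MvPolynomial σ A)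
    (hf : f ∈ mI P ^ m) : eval₂ ψ Φ f ∈ I ^ m := by
  exact span_mem_pow (eval₂Hom ψ Φ) (fun j => by simpa using h j) m hf

theorem map_mem_mI_pow {A A' σ : Type*} [CommRing A] [CommRing A'] (φ : A →+* A') (P : σ → A)
    (m : ℕ) (f : MvPolynomial σ A) (hf : f ∈ mI P ^ m) :
    map φ f ∈ mI (fun j => φ (P j)) ^ m := by
  exact span_mem_pow (map φ) (fun j => by simpa using X_sub_mem_mI (fun j => φ (P j)) j) m hf

end Crest.Agent.R259
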